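import Vale.Agent.P233.Gig.Defs

/-! # Exponentials and logarithms of test functions

The class `1 + TestI` (densities, heat flows) is the image of `TestI` (potentials) under `ex`. -/

set_option linter.all false

open MeasureTheory Filter Topology Set
open scoped ENNReal NNReal

namespace Vale.Agent.P233

variable {M : Type*} [MeasurableSpace M] {m : Measure M} {C : Calc m}

section pointwise

variable (f g : M →ₘ[m] ℝ)

theorem ex_ae : ∀ᵐ x ∂m, ex f x = Real.exp (f x) := by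
  filter_upwards [AEEqFun.coeFn_comp Real.exp Real.continuous_exp f] with x h
  rw [ex, h, Function.comp_apply]

theorem ex_add : ex (f + g) = ex f * ex g := by
  rw [eq_iff_ae]
  filter_upwards [ex_ae (f + g), mul_ae (ex f) (ex g), ex_ae f, ex_ae g, add_ae f g]
    with x a1 a2 a3 a4 a5
  rw [a1, a2, a3, a4, a5, Real.exp_add]

theorem ex_zero : ex (0 : M →ₘ[m] ℝ) = 1 := by
  rw [eq_iff_ae]
  filter_upwards [ex_ae (0 : M →ₘ[m] ℝ), zero_ae (M := M) (m := m), one_ae (M := M) (m := m)]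
    with x a1 a2 a3
  rw [a1, a2, a3, Real.exp_zero]

theorem ex_neg_mul : ex (-f) * ex f = 1 := by
  rw [← ex_add, neg_add_cancel, ex_zero]

theorem ex_mul_neg : ex f * ex (-f) = 1 := by
  rw [← ex_add, add_neg_cancel, ex_zero]

theorem ex_sub : ex (f - g) = ex f * ex (-g) := by rw [← ex_add, sub_eq_add_neg]

theorem ex_pos_ae : ∀ᵐ x ∂m, 0 < ex f x := by
  filter_upwards [ex_ae f] with x h
  rw [h]; exact Real.exp_pos _

theorem ex_nonneg : 0 ≤ ex f := by
  rw [nonneg_iff_ae]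
  filter_upwards [ex_pos_ae f] with x h using h.le

variable {f g}

theorem ex_inj (h : ex f = ex g) : f = g := by
  rw [eq_iff_ae] at h ⊢
  filter_upwards [h, ex_ae f, ex_ae g] with x a1 a2 a3
  rw [a2, a3] at a1
  exact Real.exp_injective a1

/-- two sided bounds of `ex f` -/
theorem ex_bdd {a b : ℝ} (h : ∀ᵐ x ∂m, a ≤ f x ∧ f x ≤ b) :
    ∀ᵐ x ∂m, Real.exp a ≤ ex f x ∧ ex f x ≤ Real.exp b := by
  filter_upwards [h, ex_ae f] with x a1 a2
  rw [a2]
  exact ⟨Real.exp_le_exp.2 a1.1, Real.exp_le_exp.2 a1.2⟩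

/-- bounds of `f` from bounds of `ex f` -/
theorem bdd_of_ex {a b : ℝ} (h : ∀ᵐ x ∂m, Real.exp a ≤ ex f x ∧ ex f x ≤ Real.exp b) :
    ∀ᵐ x ∂m, a ≤ f x ∧ f x ≤ b := by
  filter_upwards [h, ex_ae f] with x a1 a2
  rw [a2] at a1
  exact ⟨Real.exp_le_exp.1 a1.1, Real.exp_le_exp.1 a1.2⟩

theorem ex_mono (h : f ≤ g) : ex f ≤ ex g := by
  rw [le_iff_ae] at h ⊢
  filter_upwards [h, ex_ae f, ex_ae g] with x a1 a2 a3
  rw [a2, a3]; exact Real.exp_le_exp.2 a1

theorem le_of_ex_le (h : ex f ≤ ex g) : f ≤ g := by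
  rw [le_iff_ae] at h ⊢
  filter_upwards [h, ex_ae f, ex_ae g] with x a1 a2 a3
  rw [a2, a3] at a1; exact Real.exp_le_exp.1 a1

theorem ex_top (hf : MemLp f ∞ m) : MemLp (ex f) ∞ m := by
  obtain ⟨K, hK⟩ := mem_top_iff.1 hf
  refine mem_top_iff.2 ⟨Real.exp K, ?_⟩
  filter_upwards [hK, ex_ae f] with x a1 a2
  rw [a2, abs_of_pos (Real.exp_pos _)]
  exact Real.exp_le_exp.2 (abs_le.1 a1).2

end pointwise

/-! ### bounded Sobolev functions -/

namespace IsDir

variable (hC : IsDir C) {f g h : M →ₘ[m] ℝ}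
include hC

theorem ex_A_aux (hf : f ∈ C.A) : ex f - 1 ∈ C.A ∧ ∀ g ∈ C.W, C.Γ (ex f - 1) g = ex f * C.Γ f g := by
  obtain ⟨b, hb, he, hΓ⟩ := hC.ti_comp hf Real.continuous_exp Real.continuous_exp Real.hasDerivAt_exp
  rw [Real.exp_zero, one_smul] at he
  have e : ex f - 1 = b := by rw [ex, he]; abel
  rw [e]
  exact ⟨hb, hΓ⟩

/-- `ex f - 1` is a bounded Sobolev function -/
theorem ex_A (hf : f ∈ C.A) : ex f - 1 ∈ C.A := (hC.ex_A_aux hf).1

theorem ex_AP (hf : f ∈ C.A) : ex f ∈ C.AP := ⟨1, by rw [one_smul]; exact hC.ex_A hf⟩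

theorem Γ_ex (hf : f ∈ C.A) (hg : g ∈ C.W) : C.Γ (ex f - 1) g = ex f * C.Γ f g :=
  (hC.ex_A_aux hf).2 g hg

theorem Γ_ex' (hf : f ∈ C.A) (hg : g ∈ C.W) : C.Γ g (ex f - 1) = ex f * C.Γ g f := by
  rw [hC.symm _ hg _ (hC.ex_A hf).1, hC.Γ_ex hf hg, hC.symm _ hf.1 _ hg]

theorem Γ_ex_self (hf : f ∈ C.A) : C.Γ (ex f - 1) (ex f - 1) = ex f ^ 2 * C.Γ f f := by
  rw [hC.Γ_ex hf (hC.ex_A hf).1, hC.Γ_ex' hf hf.1]; ring

/-- `ex f * g` for `g` bounded Sobolev -/
theorem ex_mul_A (hf : f ∈ C.A) (hg : g ∈ C.A) : ex f * g ∈ C.A := by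
  rw [mul_comm]; exact hC.A_mul_AP hg (hC.ex_AP hf)

theorem Γ_ex_mul (hf : f ∈ C.A) (hg : g ∈ C.A) (hh : h ∈ C.W) :
    C.Γ (ex f * g) h = ex f * (C.Γ g h + g * C.Γ f h) := by
  have e : ex f * g = (ex f - 1) * g + g := by ring
  have hA := hC.ex_A hf
  rw [e, hC.add_left _ (hC.mul_mem_A hA hg).1 _ hg.1 _ hh, hC.Γ_mul_left hA hg hh,
    hC.Γ_ex hf hh]
  ring

end IsDir

/-! ### test functions -/

namespace IsGamma

variable (hC : IsGamma C) {κ : ℝ} (hB : C.BEi κ) {f g h F : M →ₘ[m] ℝ}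
include hC

theorem tI_A (hf : f ∈ C.TestI) : f ∈ C.A := hC.test_A hf.1

theorem tI_W (hf : f ∈ C.TestI) : f ∈ C.W := (hC.test_A hf.1).1

include hB

theorem ex_testI_aux (hf : f ∈ C.TestI) :
    ex f - 1 ∈ C.TestI ∧ C.lap (ex f - 1) = ex f * (C.lap f + C.Γ f f) := by
  obtain ⟨g, hg, h1, h2, h3⟩ := hC.testI_comp hB hf (fun t => Real.exp t - 1)
    (Real.contDiff_exp.sub contDiff_const) (by simp)
  have d1 : deriv (fun t => Real.exp t - 1) = Real.exp := by
    funext t; simp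
  have d2 : deriv (deriv fun t => Real.exp t - 1) = Real.exp := by
    rw [d1]; exact Real.deriv_exp
  have e : ex f - 1 = g := by
    rw [eq_iff_ae]
    filter_upwards [h1, sub_ae (ex f) 1, ex_ae f, one_ae (M := M) (m := m)] with x a1 a2 a3 a4
    rw [a1, a2, a3, a4]
  rw [e]
  refine ⟨hg, ?_⟩
  rw [eq_iff_ae]
  rw [d2, d1] at h3
  filter_upwards [h3, mul_ae (ex f) (C.lap f + C.Γ f f), add_ae (C.lap f) (C.Γ f f), ex_ae f]
    with x a1 a2 a3 a4
  rw [a1, a2, a3, a4]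
  ring

/-- exponentials of test functions -/
theorem ex_testI (hf : f ∈ C.TestI) : ex f - 1 ∈ C.TestI := (hC.ex_testI_aux hB hf).1

theorem lap_ex (hf : f ∈ C.TestI) : C.lap (ex f - 1) = ex f * (C.lap f + C.Γ f f) :=
  (hC.ex_testI_aux hB hf).2

theorem ex_mul_testI (hf : f ∈ C.TestI) (hg : g ∈ C.TestI) : ex f * g ∈ C.TestI := by
  have e : ex f * g = (ex f - 1) * g + g := by ring
  rw [e]
  exact hC.testI_add hB (hC.testI_mul hB (hC.ex_testI hB hf) hg) hg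

theorem ex_mul_W (hf : f ∈ C.TestI) (hg : g ∈ C.W) : ex f * g ∈ C.W := by
  have e : ex f * g = (ex f - 1) * g + g := by ring
  have h1 := hC.ex_testI hB hf
  rw [e]
  exact hC.add_mem _ (hC.toIsDir.mul_mem_lip (hC.test_A h1.1) (hC.test_Γ_top h1.1) hg) _ hg

theorem Γ_ex_mul_W (hf : f ∈ C.TestI) (hg : g ∈ C.W) (hh : h ∈ C.W) :
    C.Γ (ex f * g) h = ex f * (C.Γ g h + g * C.Γ f h) := by
  have e : ex f * g = (ex f - 1) * g + g := by ring
  have h1 := hC.ex_testI hB hf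
  have hW := hC.toIsDir.mul_mem_lip (hC.test_A h1.1) (hC.test_Γ_top h1.1) hg
  rw [e, hC.add_left _ hW _ hg _ hh, hC.toIsDir.Γ_mul_left_lip (hC.test_A h1.1)
    (hC.test_Γ_top h1.1) hg hh, hC.toIsDir.Γ_ex (hC.test_A hf.1) hh]
  ring

theorem testI_neg (hf : f ∈ C.TestI) : -f ∈ C.TestI := by
  have := hC.testI_smul hB (-1) hf
  simpa using this

theorem testI_sub (hf : f ∈ C.TestI) (hg : g ∈ C.TestI) : f - g ∈ C.TestI := by
  rw [sub_eq_add_neg]; exact hC.testI_add hB hf (hC.testI_neg hB hg)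

/-- logarithms: every `F ∈ TestI` with `1 + F ≥ c > 0` is `ex f - 1` with `f ∈ TestI` -/
theorem exists_log (hF : F ∈ C.TestI) {c : ℝ} (hc : 0 < c) (h : ∀ᵐ x ∂m, c ≤ 1 + F x) :
    ∃ f ∈ C.TestI, ex f - 1 = F := by
  -- reduce to `c ≤ 1`
  wlog hc1 : c ≤ 1 generalizing c
  · exact this (c := 1) one_pos (by filter_upwards [h] with x hx; linarith) le_rfl
  set S : ℝ → ℝ := fun t => Real.smoothTransition ((t + 1 - c / 2) / (c / 2)) with hS
  set ψ : ℝ → ℝ := fun t => c / 2 + (t + 1 - c / 2) * S t with hψ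
  have hS0 : ∀ t, 0 ≤ S t := fun t => Real.smoothTransition.nonneg _
  have hψpos : ∀ t, c / 2 ≤ ψ t := by
    intro t
    rcases le_total (t + 1) (c / 2) with h1 | h1
    · have : S t = 0 := by
        refine Real.smoothTransition.zero_of_nonpos ?_
        exact div_nonpos_of_nonpos_of_nonneg (by linarith) (by positivity)
      simp only [hψ, this]; linarith
    · have : 0 ≤ (t + 1 - c / 2) * S t := mul_nonneg (by linarith) (hS0 t)
      simp only [hψ]; linarith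
  have hψeq : ∀ t, c ≤ 1 + t → ψ t = 1 + t := by
    intro t ht
    have : S t = 1 := by
      refine Real.smoothTransition.one_of_one_le ?_
      rw [le_div_iff₀ (by positivity)]; linarith
    simp only [hψ, this]; ring
  have hSc : ContDiff ℝ 3 S := by
    refine Real.smoothTransition.contDiff.comp ?_
    fun_prop
  have hψc : ContDiff ℝ 3 ψ := by
    simp only [hψ]
    fun_prop
  have hΦ : ContDiff ℝ 3 fun t => Real.log (ψ t) :=
    hψc.log fun t => (lt_of_lt_of_le (by positivity) (hψpos t)).ne'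
  have h0 : Real.log (ψ 0) = 0 := by
    rw [hψeq 0 (by linarith)]; simp
  obtain ⟨f, hf, h1, h2, h3⟩ := hC.testI_comp hB hF _ hΦ h0
  refine ⟨f, hf, ?_⟩
  rw [eq_iff_ae]
  filter_upwards [h1, sub_ae (ex f) 1, ex_ae f, one_ae (M := M) (m := m), h] with x a1 a2 a3 a4 a5
  rw [a2, a3, a4, a1, hψeq _ a5, Real.exp_log (by linarith)]
  ring

/-- reciprocals and products in `1 + TestI` -/
theorem one_add_mul (hf : f ∈ C.TestI) (hg : g ∈ C.TestI) :
    (1 + f) * (1 + g) - 1 ∈ C.TestI := by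
  have e : (1 + f) * (1 + g) - 1 = f * g + f + g := by ring
  rw [e]
  exact hC.testI_add hB (hC.testI_add hB (hC.testI_mul hB hf hg) hf) hg

end IsGamma

end Vale.Agent.P233
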