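import Vale.Agent.P233.H748.PairT2
import Vale.Agent.P233.Gig.IfB

/-! # `Blk_B0` and `Blk_B0r` (part B): regularity of pairs in time -/

set_option linter.all false

open MeasureTheory Filter Topology Set
open scoped ENNReal NNReal

universe u

namespace Vale.Agent.P233

open H788

variable {M : Type u} [MeasurableSpace M] {m : Measure M} {C : Calc m}

/-- `Blk_B0` -/
theorem H748.blk_B0 : Blk_B0.{u} := by
  intro M _ m _ C K P hC hB hP ε a b φ u hp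
  obtain ⟨Λ, h0, H⟩ := pair_bounds hP hC hB hp
  refine ⟨hp.hε, hp.hab, hp.φ_mem, hp.u_mem, fun t ht => hp.tendsto_φ hP hC hB ht,
    fun t ht => hp.tendsto_u hP hC hB ht, fun t ht => (hp.STo_φ hP hC hB ht).lap.lim,
    fun t ht => (hp.STo_u hP hC hB ht).lap.lim, Λ, fun t ht => ?_⟩
  obtain ⟨h1, h2, -⟩ := H t ht
  filter_upwards [h2.abs, h1.abs, h2.grad, h1.grad, h2.lap, h1.lap] with x a1 a2 a3 a4 a5 a6
  exact ⟨a1, a2, a3, a4, a5, a6⟩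

namespace Calc.Reg

variable (hC : IsGamma C) {κ : ℝ} (hB : C.BEi κ)
variable {ε a b : ℝ} {φ v : ℝ → M →ₘ[m] ℝ} (hr : C.Reg ε a b φ v) {t : ℝ}
include hC hr

theorem W_diff {w : ℝ → M →ₘ[m] ℝ} (hw : ∀ t ∈ Icc a b, w t ∈ C.TestI) {w' : M →ₘ[m] ℝ}
    (hw' : w' ∈ C.W) (ht : t ∈ Icc a b) (h : C.DerW (Icc a b) w w' t) : C.DW w w' (Icc a b) t :=
  ⟨fun r hr => hC.toIsDir.sub_mem (hC.tI_W (hw r hr)) (hC.tI_W (hw t ht)), hw', h⟩

include hB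

theorem DW_u (ht : t ∈ Icc a b) : C.DW v
    ((ε / 2) • C.lap (v t) - (2 : ℝ)⁻¹ • C.Γ (v t) (v t)) (Icc a b) t :=
  hr.W_diff hC hr.u_mem (hC.toIsDir.sub_mem (hC.smul_mem _ _ (hC.test_lap_mem (hr.u_mem t ht).1))
    (hC.smul_mem _ _ (hC.Γ_mem hB (hr.u_mem t ht).1 (hr.u_mem t ht).1).1)) ht (hr.du t ht)

theorem DW_φ (ht : t ∈ Icc a b) : C.DW φ
    (-((ε / 2) • C.lap (φ t)) - (2 : ℝ)⁻¹ • C.Γ (φ t) (φ t)) (Icc a b) t :=
  hr.W_diff hC hr.φ_mem (hC.toIsDir.sub_mem (hC.toIsDir.neg_mem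
    (hC.smul_mem _ _ (hC.test_lap_mem (hr.φ_mem t ht).1)))
    (hC.smul_mem _ _ (hC.Γ_mem hB (hr.φ_mem t ht).1 (hr.φ_mem t ht).1).1)) ht (hr.dφ t ht)

omit hB hr in
/-- uniform bounds and convergence give `STo` -/
theorem sto_mk {ι : Type*} {l : Filter ι} {w : ι → M →ₘ[m] ℝ} {c : M →ₘ[m] ℝ} {B : ℝ}
    (hw : ∀ᶠ i in l, w i ∈ C.TestI) (hc : c ∈ C.TestI) (h1 : C.WTo l w c)
    (h2 : C.WTo l (fun i => C.lap (w i)) (C.lap c))
    (b1 : ∀ᵐ x ∂m, |c x| ≤ B ∧ C.Γ c c x ≤ B ∧ |C.lap c x| ≤ B)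
    (b2 : ∀ᶠ i in l, ∀ᵐ x ∂m, |w i x| ≤ B ∧ C.Γ (w i) (w i) x ≤ B ∧ |C.lap (w i) x| ≤ B) :
    C.STo l w c := by
  have hD := hC.toIsDir
  have n1 := hD.nrm2_nonneg h1.mem'
  have n2 := hD.nrm2_nonneg h2.mem'
  set Λ : ℝ := |B| + (2 * C.nrm2 c + 2) + (2 * C.nrm2 (C.lap c) + 2) with hΛ
  have hΛB : B ≤ Λ := by have := le_abs_self B; linarith
  have hΛ0 : 0 ≤ Λ := by positivity
  refine ⟨hw, hc, h1, h2, Λ, hΛ0, ⟨?_, ?_, ?_, ?_, ?_⟩, ?_⟩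
  · filter_upwards [b1] with x hx using hx.1.trans hΛB
  · filter_upwards [b1] with x hx using hx.2.1.trans hΛB
  · filter_upwards [b1] with x hx using hx.2.2.trans hΛB
  · have := abs_nonneg B; linarith
  · have := abs_nonneg B; linarith
  filter_upwards [b2, hD.WTo_bdd h1, hD.WTo_bdd h2] with i a1 a2 a3
  refine ⟨?_, ?_, ?_, ?_, ?_⟩
  · filter_upwards [a1] with x hx using hx.1.trans hΛB
  · filter_upwards [a1] with x hx using hx.2.1.trans hΛB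
  · filter_upwards [a1] with x hx using hx.2.2.trans hΛB
  · have := abs_nonneg B; linarith
  · have := abs_nonneg B; linarith

omit hB in
theorem lap_WTo {w : ℝ → M →ₘ[m] ℝ} (hw : ∀ t ∈ Icc a b, w t ∈ C.TestI) (ht : t ∈ Icc a b)
    (h : C.CtW (Icc a b) (fun s => C.lap (w s)) t) :
    C.WTo (𝓝[Icc a b] t) (fun s => C.lap (w s)) (C.lap (w t)) :=
  ⟨by filter_upwards [self_mem_nhdsWithin] with s hs using hC.test_lap_mem (hw s hs).1,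
    hC.test_lap_mem (hw t ht).1, h⟩

theorem STo_u (ht : t ∈ Icc a b) : C.STo (𝓝[Icc a b] t) v (v t) := by
  obtain ⟨B, hb⟩ := hr.bdd
  refine sto_mk (B := B) hC (by filter_upwards [self_mem_nhdsWithin] with s hs using hr.u_mem s hs)
    (hr.u_mem t ht) (hC.toIsDir.DW_WTo (hr.DW_u hC hB ht) (hC.tI_W (hr.u_mem t ht)))
    (hr.lap_WTo hC hr.u_mem ht (hr.cu t ht)) ?_ ?_
  · filter_upwards [hb t ht] with x hx using ⟨hx.2.1, hx.2.2.2.1, hx.2.2.2.2.2⟩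
  · filter_upwards [self_mem_nhdsWithin] with s hs
    filter_upwards [hb s hs] with x hx using ⟨hx.2.1, hx.2.2.2.1, hx.2.2.2.2.2⟩

theorem STo_φ (ht : t ∈ Icc a b) : C.STo (𝓝[Icc a b] t) φ (φ t) := by
  obtain ⟨B, hb⟩ := hr.bdd
  refine sto_mk (B := B) hC (by filter_upwards [self_mem_nhdsWithin] with s hs using hr.φ_mem s hs)
    (hr.φ_mem t ht) (hC.toIsDir.DW_WTo (hr.DW_φ hC hB ht) (hC.tI_W (hr.φ_mem t ht)))
    (hr.lap_WTo hC hr.φ_mem ht (hr.cφ t ht)) ?_ ?_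
  · filter_upwards [hb t ht] with x hx using ⟨hx.1, hx.2.2.1, hx.2.2.2.2.1⟩
  · filter_upwards [self_mem_nhdsWithin] with s hs
    filter_upwards [hb s hs] with x hx using ⟨hx.1, hx.2.2.1, hx.2.2.2.2.1⟩

theorem STo_L (ht : t ∈ Icc a b) : C.STo (𝓝[Icc a b] t) (LL ε φ v) (LL ε φ v t) :=
  hC.STo_smul hB _ (hC.STo_sub hB (hr.STo_φ hC hB ht) (hr.STo_u hC hB ht))

theorem STo_th (ht : t ∈ Icc a b) : C.STo (𝓝[Icc a b] t) (th φ v) (th φ v t) :=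
  hC.STo_smul hB _ (hC.STo_add hB (hr.STo_φ hC hB ht) (hr.STo_u hC hB ht))

theorem STo_rh [SigmaFinite m] (ht : t ∈ Icc a b) :
    C.STo (𝓝[Icc a b] t) (fun r => rh ε φ v r - 1) (rh ε φ v t - 1) :=
  hC.STo_ex hB (hr.STo_L hC hB ht)

theorem L_mem (ht : t ∈ Icc a b) : LL ε φ v t ∈ C.TestI :=
  hC.testI_smul hB _ (hC.testI_sub hB (hr.φ_mem t ht) (hr.u_mem t ht))

theorem th_mem (ht : t ∈ Icc a b) : th φ v t ∈ C.TestI :=
  hC.testI_smul hB _ (hC.testI_add hB (hr.φ_mem t ht) (hr.u_mem t ht))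

theorem rh_mem (ht : t ∈ Icc a b) : rh ε φ v t - 1 ∈ C.TestI := hC.ex_testI hB (hr.L_mem hC hB ht)

/-- `L' = -(Δθ + ⟨∇L,∇θ⟩)` -/
theorem DW_L (ht : t ∈ Icc a b) : C.DW (LL ε φ v)
    (-(C.lap (th φ v t) + C.Γ (LL ε φ v t) (th φ v t))) (Icc a b) t := by
  have hε' := hr.hε.ne'
  have hD := hC.toIsDir
  have h1 := hD.DW_smul ε⁻¹ (hD.DW_sub (hr.DW_φ hC hB ht) (hr.DW_u hC hB ht))
  have hφ := hr.φ_mem t ht
  have hu := hr.u_mem t ht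
  have hφW := hC.tI_W hφ
  have huW := hC.tI_W hu
  have e : ε⁻¹ • (-((ε / 2) • C.lap (φ t)) - (2 : ℝ)⁻¹ • C.Γ (φ t) (φ t)
      - ((ε / 2) • C.lap (v t) - (2 : ℝ)⁻¹ • C.Γ (v t) (v t)))
      = -(C.lap (th φ v t) + C.Γ (LL ε φ v t) (th φ v t)) := by
    unfold th LL
    rw [hC.lap_smul hB _ (hC.test_add hB hφ.1 hu.1), hC.lap_add hB hφ.1 hu.1,
      hD.smul_left _ _ (hD.sub_mem hφW huW) _ (hD.smul_mem _ _ (hD.add_mem _ hφW _ huW)),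
      hD.Γ_smul_right _ (hD.sub_mem hφW huW) (hD.add_mem _ hφW _ huW),
      hD.Γ_sub_left hφW huW (hD.add_mem _ hφW _ huW), hD.Γ_add_right hφW hφW huW,
      hD.Γ_add_right huW hφW huW, hC.symm _ huW _ hφW]
    match_scalars <;> field_simp <;> ring
  rwa [e] at h1

/-- `θ' + ½ |∇θ|² = -(ε²/8) (2 ΔL + |∇L|²)` -/
theorem DW_th (ht : t ∈ Icc a b) : C.DW (th φ v)
    (-((2 : ℝ)⁻¹ • C.Γ (th φ v t) (th φ v t))
      - (ε ^ 2 / 8) • ((2 : ℝ) • C.lap (LL ε φ v t) + C.Γ (LL ε φ v t) (LL ε φ v t)))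
    (Icc a b) t := by
  have hε' := hr.hε.ne'
  have hD := hC.toIsDir
  have h1 := hD.DW_smul (2 : ℝ)⁻¹ (hD.DW_add (hr.DW_φ hC hB ht) (hr.DW_u hC hB ht))
  have hφ := hr.φ_mem t ht
  have hu := hr.u_mem t ht
  have hφW := hC.tI_W hφ
  have huW := hC.tI_W hu
  have e : (2 : ℝ)⁻¹ • (-((ε / 2) • C.lap (φ t)) - (2 : ℝ)⁻¹ • C.Γ (φ t) (φ t)
      + ((ε / 2) • C.lap (v t) - (2 : ℝ)⁻¹ • C.Γ (v t) (v t)))
      = -((2 : ℝ)⁻¹ • C.Γ (th φ v t) (th φ v t)) - (ε ^ 2 / 8) •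
        ((2 : ℝ) • C.lap (LL ε φ v t) + C.Γ (LL ε φ v t) (LL ε φ v t)) := by
    have hs := hC.testI_sub hB hφ hu
    have l1 : C.lap (φ t - v t) = C.lap (φ t) - C.lap (v t) := by
      have e0 : φ t - v t = φ t + (-1 : ℝ) • v t := by simp [sub_eq_add_neg]
      rw [e0, hC.lap_add hB hφ.1 (hC.test_smul hB _ hu.1), hC.lap_smul hB _ hu.1]
      simp [sub_eq_add_neg]
    unfold th LL
    rw [hC.lap_smul hB _ hs.1, l1,
      hD.smul_left _ _ (hD.add_mem _ hφW _ huW) _ (hD.smul_mem _ _ (hD.add_mem _ hφW _ huW)),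
      hD.Γ_smul_right _ (hD.add_mem _ hφW _ huW) (hD.add_mem _ hφW _ huW),
      hD.add_left _ hφW _ huW _ (hD.add_mem _ hφW _ huW), hD.Γ_add_right hφW hφW huW,
      hD.Γ_add_right huW hφW huW,
      hD.smul_left _ _ (hD.sub_mem hφW huW) _ (hD.smul_mem _ _ (hD.sub_mem hφW huW)),
      hD.Γ_smul_right _ (hD.sub_mem hφW huW) (hD.sub_mem hφW huW),
      hD.Γ_sub_left hφW huW (hD.sub_mem hφW huW), hD.Γ_sub_right hφW hφW huW,
      hD.Γ_sub_right huW hφW huW, hC.symm _ huW _ hφW]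
    match_scalars <;> field_simp <;> ring
  rwa [e] at h1

/-- uniform bounds of `L` -/
theorem L_bd : ∃ B : ℝ, 0 ≤ B ∧ ∀ t ∈ Icc a b, ∀ᵐ x ∂m, |LL ε φ v t x| ≤ B ∧
    C.Γ (LL ε φ v t) (LL ε φ v t) x ≤ B ∧ |C.lap (LL ε φ v t) x| ≤ B := by
  obtain ⟨B, hb⟩ := hr.bdd
  have hD := hC.toIsDir
  have hε' := hr.hε.ne'
  refine ⟨|ε⁻¹| * (2 * |B|) + ε⁻¹ ^ 2 * (4 * |B|), by positivity, fun t ht => ?_⟩
  have hφ := hr.φ_mem t ht
  have hu := hr.u_mem t ht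
  have hφW := hC.tI_W hφ
  have huW := hC.tI_W hu
  have hs := hC.testI_sub hB hφ hu
  have l1 : C.lap (φ t - v t) = C.lap (φ t) - C.lap (v t) := by
    have e0 : φ t - v t = φ t + (-1 : ℝ) • v t := by simp [sub_eq_add_neg]
    rw [e0, hC.lap_add hB hφ.1 (hC.test_smul hB _ hu.1), hC.lap_smul hB _ hu.1]
    simp [sub_eq_add_neg]
  have e1 : C.lap (LL ε φ v t) = ε⁻¹ • (C.lap (φ t) - C.lap (v t)) := by
    unfold LL; rw [hC.lap_smul hB _ hs.1, l1]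
  have e2 : C.Γ (LL ε φ v t) (LL ε φ v t) = ε⁻¹ • ε⁻¹ • C.Γ (φ t - v t) (φ t - v t) := by
    unfold LL
    rw [hD.smul_left _ _ (hD.sub_mem hφW huW) _ (hD.smul_mem _ _ (hD.sub_mem hφW huW)),
      hD.Γ_smul_right _ (hD.sub_mem hφW huW) (hD.sub_mem hφW huW)]
  have h4 := hD.Γ_sub_bd hφW huW (L := |B|)
    (by filter_upwards [hb t ht] with x hx using hx.2.2.1.trans (le_abs_self B))
    (by filter_upwards [hb t ht] with x hx using hx.2.2.2.1.trans (le_abs_self B))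
  rw [e1, e2]
  have p1 : 0 ≤ |ε⁻¹| * (2 * |B|) := by positivity
  have p2 : 0 ≤ ε⁻¹ ^ 2 * (4 * |B|) := by positivity
  filter_upwards [hb t ht, h4, smul_ae (φ t - v t) ε⁻¹, sub_ae (φ t) (v t),
    smul_ae (ε⁻¹ • C.Γ (φ t - v t) (φ t - v t)) ε⁻¹, smul_ae (C.Γ (φ t - v t) (φ t - v t)) ε⁻¹,
    smul_ae (C.lap (φ t) - C.lap (v t)) ε⁻¹, sub_ae (C.lap (φ t)) (C.lap (v t))]
    with x a1 a2 a3 a4 a5 a6 a7 a8
  obtain ⟨c1, c2, c3, c4, c5, c6⟩ := a1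
  have hBB := le_abs_self B
  have key : ∀ p q : ℝ, |p| ≤ B → |q| ≤ B → |ε⁻¹ * (p - q)| ≤ |ε⁻¹| * (2 * |B|) := by
    intro p q hp hq
    rw [abs_mul]
    exact mul_le_mul_of_nonneg_left ((abs_sub _ _).trans (by linarith)) (abs_nonneg _)
  refine ⟨?_, ?_, ?_⟩
  · have : LL ε φ v t x = ε⁻¹ * (φ t x - v t x) := by
      unfold LL; rw [a3, a4]
    rw [this]
    exact (key _ _ c1 c2).trans (by linarith)
  · rw [a5, a6, ← mul_assoc, ← sq]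
    exact (mul_le_mul_of_nonneg_left a2 (sq_nonneg _)).trans (by linarith)
  · rw [a7, a8]
    exact (key _ _ c5 c6).trans (by linarith)

/-- the continuity equation: `ρ' = -div (ρ ∇θ)` -/
theorem DW_rh (ht : t ∈ Icc a b) : C.DW (rh ε φ v)
    (-(rh ε φ v t * C.lap (th φ v t) + C.Γ (th φ v t) (rh ε φ v t - 1))) (Icc a b) t := by
  have hD := hC.toIsDir
  obtain ⟨B, h0, hb⟩ := hr.L_bd hC hB
  have hm := fun r (hr' : r ∈ Icc a b) => hr.L_mem hC hB hr'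
  have h1 := hD.DW_ex (hr.DW_L hC hB ht) ht (fun r hr => hC.tI_A (hm r hr))
    (fun r hr => (hb r hr).mono fun x hx => hx.1) (fun r hr => (hb r hr).mono fun x hx => hx.2.1)
  have hthW := hC.tI_W (hr.th_mem hC hB ht)
  have hLW := hC.tI_W (hm t ht)
  have e : ex (LL ε φ v t) * -(C.lap (th φ v t) + C.Γ (LL ε φ v t) (th φ v t))
      = -(rh ε φ v t * C.lap (th φ v t) + C.Γ (th φ v t) (rh ε φ v t - 1)) := by
    have e1 : C.Γ (th φ v t) (rh ε φ v t - 1) = ex (LL ε φ v t) * C.Γ (th φ v t) (LL ε φ v t) :=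
      hD.Γ_ex' (hC.tI_A (hm t ht)) hthW
    have e2 : rh ε φ v t = ex (LL ε φ v t) := rfl
    rw [e1, e2, hC.symm _ hthW _ hLW]; ring
  rw [e] at h1
  exact h1

end Calc.Reg

/-- `Blk_B0r` -/
theorem H748.blk_B0r : Blk_B0r.{u} := by
  intro M _ m _ C K hC hB ε a b φ u hr
  have hD := hC.toIsDir
  refine ⟨fun t ht => ⟨hr.L_mem hC hB ht, hr.th_mem hC hB ht, hr.rh_mem hC hB ht,
    fun g hg => hD.Γ_ex (hC.tI_A (hr.L_mem hC hB ht)) hg, hC.lap_ex hB (hr.L_mem hC hB ht)⟩,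
    fun t ht => (hr.DW_rh hC hB ht).lim, fun t ht => (hr.DW_th hC hB ht).lim,
    fun t ht => (hr.STo_rh hC hB ht).lap.lim, ?_⟩
  obtain ⟨B, h0, hb⟩ := hr.L_bd hC hB
  refine ⟨Real.exp B + Real.exp B ^ 2 * B + Real.exp B * (2 * B), fun t ht => ?_⟩
  have hL := hr.L_mem hC hB ht
  have hLA := hC.tI_A hL
  have e0 : rh ε φ u t = ex (LL ε φ u t) := rfl
  have e1 : C.Γ (rh ε φ u t - 1) (rh ε φ u t - 1)
      = ex (LL ε φ u t) ^ 2 * C.Γ (LL ε φ u t) (LL ε φ u t) := hD.Γ_ex_self hLA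
  have e2 : C.lap (rh ε φ u t - 1) = ex (LL ε φ u t) * (C.lap (LL ε φ u t)
      + C.Γ (LL ε φ u t) (LL ε φ u t)) := hC.lap_ex hB hL
  rw [e1, e2, e0]
  filter_upwards [hb t ht, ex_ae (LL ε φ u t),
    mul_ae (ex (LL ε φ u t) ^ 2) (C.Γ (LL ε φ u t) (LL ε φ u t)), sq_ae (ex (LL ε φ u t)),
    mul_ae (ex (LL ε φ u t)) (C.lap (LL ε φ u t) + C.Γ (LL ε φ u t) (LL ε φ u t)),
    add_ae (C.lap (LL ε φ u t)) (C.Γ (LL ε φ u t) (LL ε φ u t)), hD.Γ_nonneg_ae hLA.1]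
    with x a1 a2 a3 a4 a5 a6 a7
  obtain ⟨c1, c2, c3⟩ := a1
  have c1' := abs_le.1 c1
  have c3' := abs_le.1 c3
  have q1 : Real.exp (LL ε φ u t x) ≤ Real.exp B := Real.exp_le_exp.2 c1'.2
  have q2 : Real.exp (-B) ≤ Real.exp (LL ε φ u t x) := Real.exp_le_exp.2 c1'.1
  have q0 := Real.exp_pos (LL ε φ u t x)
  have qB := Real.exp_pos B
  have r1 : 0 ≤ Real.exp B ^ 2 * B := by positivity
  have r2 : 0 ≤ Real.exp B * (2 * B) := by positivity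
  refine ⟨?_, ?_, ?_, ?_⟩
  · rw [a2]
    refine le_trans ?_ q2
    rw [Real.exp_neg]
    exact inv_anti₀ qB (by linarith)
  · rw [a2]; linarith
  · rw [a3, a4, a2]
    have : Real.exp (LL ε φ u t x) ^ 2 * C.Γ (LL ε φ u t) (LL ε φ u t) x ≤ Real.exp B ^ 2 * B :=
      mul_le_mul (pow_le_pow_left₀ q0.le q1 2) c2 a7 (by positivity)
    linarith
  · rw [a5, a6, a2, abs_mul, abs_of_pos q0]
    have h5 : |C.lap (LL ε φ u t) x + C.Γ (LL ε φ u t) (LL ε φ u t) x| ≤ 2 * B := by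
      rw [abs_le]; constructor <;> linarith
    have : Real.exp (LL ε φ u t x) * |C.lap (LL ε φ u t) x + C.Γ (LL ε φ u t) (LL ε φ u t) x|
        ≤ Real.exp B * (2 * B) := mul_le_mul q1 h5 (abs_nonneg _) qB.le
    linarith

end Vale.Agent.P233
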