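import Vale.Agent.P233.H748.ExpQ
import Vale.Agent.P233.H788.Bounds
import Vale.Agent.P233.Bd3.B7

/-! # Time calculus of a pair of level `ε`

Strong continuity in time (`STo`), `W`-derivatives of `u`, `φ`, `LL`, `th`, `rh` and of the heat
flows, for every `Pair`. -/

set_option linter.all false

open MeasureTheory Filter Topology Set
open scoped ENNReal NNReal

universe u

namespace Vale.Agent.P233

open H788

variable {M : Type u} [MeasurableSpace M] {m : Measure M} {C : Calc m}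

/-! ### strong convergence of test functions -/

/-- convergence of test functions with bounded Laplacian, with uniform bounds: in `W`, with the
Laplacians in `W` -/
structure Calc.STo (C : Calc m) {ι : Type*} (l : Filter ι) (v : ι → M →ₘ[m] ℝ)
    (a : M →ₘ[m] ℝ) : Prop where
  mem : ∀ᶠ i in l, v i ∈ C.TestI
  mem' : a ∈ C.TestI
  W : C.WTo l v a
  lap : C.WTo l (fun i => C.lap (v i)) (C.lap a)
  bd : ∃ Λ : ℝ, 0 ≤ Λ ∧ TBd C Λ a ∧ ∀ᶠ i in l, TBd C Λ (v i)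

/-- convergence of test functions in `W`, with the Laplacians in `L²` -/
structure Calc.CTo (C : Calc m) {ι : Type*} (l : Filter ι) (v : ι → M →ₘ[m] ℝ)
    (a : M →ₘ[m] ℝ) : Prop where
  mem : ∀ᶠ i in l, v i ∈ C.Test
  mem' : a ∈ C.Test
  W : C.WTo l v a
  lap : L2To l (fun i => C.lap (v i)) (C.lap a)
  bd : ∃ L : ℝ, ∀ᶠ i in l, ∀ᵐ x ∂m, C.Γ (v i) (v i) x ≤ L

section conv

variable {ι κ' : Type*} {l : Filter ι} {v w : ι → M →ₘ[m] ℝ} {a b : M →ₘ[m] ℝ}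

theorem Calc.STo.comp (h : C.STo l v a) {k : Filter κ'} {g : κ' → ι} (hg : Tendsto g k l) :
    C.STo k (fun i => v (g i)) a :=
  ⟨hg.eventually h.mem, h.mem', h.W.comp hg, h.lap.comp hg,
    let ⟨Λ, h0, h1, h2⟩ := h.bd; ⟨Λ, h0, h1, hg.eventually h2⟩⟩

theorem Calc.CTo.comp (h : C.CTo l v a) {k : Filter κ'} {g : κ' → ι} (hg : Tendsto g k l) :
    C.CTo k (fun i => v (g i)) a :=
  ⟨hg.eventually h.mem, h.mem', h.W.comp hg, h.lap.comp hg,
    let ⟨L, h1⟩ := h.bd; ⟨L, hg.eventually h1⟩⟩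

theorem Calc.STo.congr (h : C.STo l v a) (hvw : ∀ᶠ i in l, v i = w i) : C.STo l w a := by
  refine ⟨?_, h.mem', h.W.congr hvw, h.lap.congr (hvw.mono fun i hi => by rw [hi]), ?_⟩
  · filter_upwards [h.mem, hvw] with i a1 a2
    rwa [← a2]
  · obtain ⟨Λ, h0, h1, h2⟩ := h.bd
    refine ⟨Λ, h0, h1, ?_⟩
    filter_upwards [h2, hvw] with i a1 a2
    rwa [← a2]

theorem IsDir.STo_CTo (hC : IsDir C) (h : C.STo l v a) : C.CTo l v a :=
  ⟨h.mem.mono fun i hi => hi.1, h.mem'.1, h.W, hC.WTo_L2 h.lap,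
    let ⟨Λ, _, _, h2⟩ := h.bd; ⟨Λ, h2.mono fun i hi => hi.grad⟩⟩

/-- sequences along the filter -/
theorem Calc.CTo.seq (h : C.CTo l v a) {ns : ℕ → ι} (hns : Tendsto ns atTop l) :
    ∃ N : ℕ, ∀ N' ≥ N, C.Cw (fun n => v (ns (n + N'))) a := by
  obtain ⟨L, hL⟩ := h.bd
  obtain ⟨N, hN⟩ := eventually_atTop.1 (hns.eventually (h.mem.and hL))
  refine ⟨N, fun N' hN' => ?_⟩
  have hns' : Tendsto (fun n => ns (n + N')) atTop l := hns.comp (tendsto_add_atTop_nat N')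
  exact ⟨fun n => (hN _ (by omega)).1, h.mem', h.W.lim.comp hns', h.lap.lim.comp hns',
    ⟨L, fun n => (hN _ (by omega)).2⟩⟩

end conv

namespace IsGamma

variable (hC : IsGamma C) {κ : ℝ} (hB : C.BEi κ)
variable {ι : Type*} {l : Filter ι} {v w z : ι → M →ₘ[m] ℝ} {a b c : M →ₘ[m] ℝ}
include hC hB

theorem Cw_zero : C.Cw (fun _ => (0 : M →ₘ[m] ℝ)) 0 := by
  have h0 : (0 : M →ₘ[m] ℝ) ∈ C.Test := hC.test_zero'
  have e : (0 : M →ₘ[m] ℝ) - 0 = 0 := sub_zero _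
  refine ⟨fun _ => h0, h0, ?_, ?_, ⟨0, fun _ => ?_⟩⟩
  · simp only [e, hC.toIsDir.nrm2_zero]; exact tendsto_const_nhds
  · have : (C.lap (0 : M →ₘ[m] ℝ) - C.lap 0) ^ 2 = 0 := by ring
    simp only [this, I_zero]; exact tendsto_const_nhds
  · rw [hC.toIsDir.Γ_zero_left hC.zero_mem]
    filter_upwards [zero_ae (M := M) (m := m)] with x a1
    rw [a1]

/-- `Γ` is continuous on test functions, with values in `W` -/
theorem CTo_Γ [SigmaFinite m] [l.IsCountablyGenerated] (h1 : C.CTo l v a) (h2 : C.CTo l w b) :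
    C.WTo l (fun i => C.Γ (v i) (w i)) (C.Γ a b) := by
  refine Calc.WTo.of_seq ?_ (hC.Γ_mem hB h1.mem' h2.mem').1 fun ns hns => ?_
  · filter_upwards [h1.mem, h2.mem] with i a1 a2 using (hC.Γ_mem hB a1 a2).1
  obtain ⟨N1, hN1⟩ := h1.seq hns
  obtain ⟨N2, hN2⟩ := h2.seq hns
  have c1 := hN1 (N1 + N2) (by omega)
  have c2 := hN2 (N1 + N2) (by omega)
  obtain ⟨ks, hks, d1, d2, -, -⟩ := hC.exists_common hB c1 c2 (hC.Cw_zero hB)
    ⟨0, fun n => by filter_upwards [zero_ae (M := M) (m := m)] with x a1; rw [a1, abs_zero]⟩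
  exact ⟨fun n => ks n + (N1 + N2), (hC.Cv_Γ hB d1 d2).lim⟩

/-- `hess` is continuous on test functions, with values in `L²` -/
theorem CTo_hess [SigmaFinite m] [l.IsCountablyGenerated] (h1 : C.CTo l v a) (h2 : C.CTo l w b)
    (h3 : C.CTo l z c) : L2To l (fun i => C.hess (v i) (w i) (z i)) (C.hess a b c) := by
  refine L2To.of_seq ?_ (hC.hess_mem2 hB h1.mem' h2.mem' h3.mem') fun ns hns => ?_
  · filter_upwards [h1.mem, h2.mem, h3.mem] with i a1 a2 a3 using hC.hess_mem2 hB a1 a2 a3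
  obtain ⟨N1, hN1⟩ := h1.seq hns
  obtain ⟨N2, hN2⟩ := h2.seq hns
  obtain ⟨N3, hN3⟩ := h3.seq hns
  have c1 := hN1 (N1 + N2 + N3) (by omega)
  have c2 := hN2 (N1 + N2 + N3) (by omega)
  have c3 := hN3 (N1 + N2 + N3) (by omega)
  have z0 : ∃ B : ℝ, ∀ n : ℕ, ∀ᵐ x ∂m, |(fun _ => (0 : M →ₘ[m] ℝ)) n x| ≤ B :=
    ⟨0, fun n => by filter_upwards [zero_ae (M := M) (m := m)] with x a1; rw [a1, abs_zero]⟩
  obtain ⟨ks, hks, d1, d2, -, -⟩ := hC.exists_common hB c1 c2 (hC.Cw_zero hB) z0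
  obtain ⟨js, hjs, e1, e2, -, -⟩ := hC.exists_common hB (c3.sub hks) (c1.sub hks)
    (hC.Cw_zero hB) z0
  have d1' : C.Cv (fun n => v (ns (ks (js n) + (N1 + N2 + N3)))) a :=
    ⟨fun n => d1.test _, d1.lim, d1.W.comp hjs.tendsto_atTop, d1.lap.comp hjs.tendsto_atTop,
      let ⟨K, hK⟩ := d1.bd; ⟨K, fun n => hK _⟩, by
        filter_upwards [d1.ae] with x hx using hx.comp hjs.tendsto_atTop⟩
  have d2' : C.Cv (fun n => w (ns (ks (js n) + (N1 + N2 + N3)))) b :=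
    ⟨fun n => d2.test _, d2.lim, d2.W.comp hjs.tendsto_atTop, d2.lap.comp hjs.tendsto_atTop,
      let ⟨K, hK⟩ := d2.bd; ⟨K, fun n => hK _⟩, by
        filter_upwards [d2.ae] with x hx using hx.comp hjs.tendsto_atTop⟩
  exact ⟨fun n => ks (js n) + (N1 + N2 + N3), (hC.Cv_hess hB d1' d2' e1).lim⟩

theorem STo_const (ha : a ∈ C.TestI) : C.STo l (fun _ => a) a := by
  obtain ⟨Λ, h0, h⟩ := exists_tbd hC hB ha
  exact ⟨Eventually.of_forall fun _ => ha, ha, hC.toIsDir.WTo_const (hC.tI_W ha),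
    hC.toIsDir.WTo_const (hC.test_lap_mem ha.1), Λ, h0, h, Eventually.of_forall fun _ => h⟩

theorem STo_add (h1 : C.STo l v a) (h2 : C.STo l w b) :
    C.STo l (fun i => v i + w i) (a + b) := by
  have hD := hC.toIsDir
  obtain ⟨Λ, h0, p1, p2⟩ := h1.bd
  obtain ⟨Λ', h0', p1', p2'⟩ := h2.bd
  refine ⟨?_, hC.testI_add hB h1.mem' h2.mem', hD.WTo_add h1.W h2.W, ?_,
    2 * Λ + 2 * Λ', by positivity, tbd_add hC hB h0 h0' h1.mem' h2.mem' p1 p1', ?_⟩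
  · filter_upwards [h1.mem, h2.mem] with i a1 a2 using hC.testI_add hB a1 a2
  · rw [hC.lap_add hB h1.mem'.1 h2.mem'.1]
    refine (hD.WTo_add h1.lap h2.lap).congr ?_
    filter_upwards [h1.mem, h2.mem] with i a1 a2 using (hC.lap_add hB a1.1 a2.1).symm
  · filter_upwards [h1.mem, h2.mem, p2, p2'] with i a1 a2 a3 a4 using
      tbd_add hC hB h0 h0' a1 a2 a3 a4

theorem STo_smul (t : ℝ) (h1 : C.STo l v a) : C.STo l (fun i => t • v i) (t • a) := by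
  have hD := hC.toIsDir
  obtain ⟨Λ, h0, p1, p2⟩ := h1.bd
  refine ⟨?_, hC.testI_smul hB _ h1.mem', hD.WTo_smul t h1.W, ?_,
    (1 + t ^ 2) * Λ, by positivity, tbd_smul hC hB h0 h1.mem' p1 t, ?_⟩
  · filter_upwards [h1.mem] with i a1 using hC.testI_smul hB _ a1
  · rw [hC.lap_smul hB t h1.mem'.1]
    refine (hD.WTo_smul t h1.lap).congr ?_
    filter_upwards [h1.mem] with i a1 using (hC.lap_smul hB t a1.1).symm
  · filter_upwards [h1.mem, p2] with i a1 a3 using tbd_smul hC hB h0 a1 a3 t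

theorem STo_neg (h1 : C.STo l v a) : C.STo l (fun i => -v i) (-a) := by
  simpa using hC.STo_smul hB (-1) h1

theorem STo_sub (h1 : C.STo l v a) (h2 : C.STo l w b) :
    C.STo l (fun i => v i - w i) (a - b) := by
  simpa [sub_eq_add_neg] using hC.STo_add hB h1 (hC.STo_neg hB h2)

theorem STo_Γ [SigmaFinite m] [l.IsCountablyGenerated] (h1 : C.STo l v a) (h2 : C.STo l w b) :
    C.WTo l (fun i => C.Γ (v i) (w i)) (C.Γ a b) :=
  hC.CTo_Γ hB (hC.toIsDir.STo_CTo h1) (hC.toIsDir.STo_CTo h2)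

theorem STo_hess [SigmaFinite m] [l.IsCountablyGenerated] (h1 : C.STo l v a) (h2 : C.STo l w b)
    (h3 : C.STo l z c) : L2To l (fun i => C.hess (v i) (w i) (z i)) (C.hess a b c) :=
  hC.CTo_hess hB (hC.toIsDir.STo_CTo h1) (hC.toIsDir.STo_CTo h2) (hC.toIsDir.STo_CTo h3)

/-- products `exp v * k` with `k → b` in `W` -/
theorem STo_ex_mul [l.IsCountablyGenerated] (h1 : C.STo l v a) (hw : C.WTo l w b) :
    C.WTo l (fun i => ex (v i) * w i) (ex a * b) := by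
  obtain ⟨Λ, h0, p1, p2⟩ := h1.bd
  exact hC.toIsDir.WTo_ex_mul h1.W h0 (p2.mono fun i hi => hi.abs) p1.abs
    (p2.mono fun i hi => hi.grad) p1.grad hw

theorem STo_ex [SigmaFinite m] [l.IsCountablyGenerated] (h1 : C.STo l v a) :
    C.STo l (fun i => ex (v i) - 1) (ex a - 1) := by
  have hD := hC.toIsDir
  obtain ⟨Λ, h0, p1, p2⟩ := h1.bd
  obtain ⟨Λ', h0', H⟩ := tbd_ex hC hB h0
  refine ⟨?_, hC.ex_testI hB h1.mem', hD.WTo_ex h1.W h0 (p2.mono fun i hi => hi.abs) p1.abs, ?_,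
    Λ', h0', H _ ⟨h1.mem', p1⟩, ?_⟩
  · filter_upwards [h1.mem] with i a1 using hC.ex_testI hB a1
  · rw [hC.lap_ex hB h1.mem']
    refine (hC.STo_ex_mul hB h1 (hD.WTo_add h1.lap (hC.STo_Γ hB h1 h1))).congr ?_
    filter_upwards [h1.mem] with i a1 using (hC.lap_ex hB a1).symm
  · filter_upwards [h1.mem, p2] with i a1 a2 using H _ ⟨a1, a2⟩

/-- strong convergence of logarithms -/
theorem STo_log [SigmaFinite m] [l.IsCountablyGenerated] (hv : ∀ᶠ i in l, v i ∈ C.TestI)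
    (ha : a ∈ C.TestI) {Λ : ℝ} (h0 : 0 ≤ Λ) (p1 : TBd C Λ a) (p2 : ∀ᶠ i in l, TBd C Λ (v i))
    (hW : C.WTo l v a) (hl : C.WTo l (fun i => C.lap (ex (v i) - 1)) (C.lap (ex a - 1))) :
    C.STo l v a := by
  have hD := hC.toIsDir
  have n1 : ∀ᶠ i in l, -v i ∈ C.TestI ∧ TBd C Λ (-v i) := by
    filter_upwards [hv, p2] with i a1 a2
    have hW := hC.tI_W a1
    refine ⟨hC.testI_neg hB a1, ?_, ?_, ?_, ?_, ?_⟩
    · filter_upwards [a2.abs, neg_ae (v i)] with x b1 b2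
      rwa [b2, abs_neg]
    · rw [hD.Γ_neg_left hW (hD.neg_mem hW), hD.Γ_neg_right hW hW, neg_neg]; exact a2.grad
    · have e : -v i = (-1 : ℝ) • v i := by simp
      rw [e, hC.lap_smul hB _ a1.1]
      filter_upwards [a2.lap, smul_ae (C.lap (v i)) (-1)] with x b1 b2
      rwa [b2, neg_one_mul, abs_neg]
    · have e : -v i = (-1 : ℝ) • v i := by simp
      rw [e, hD.nrm2_smul _ hW]; simpa using a2.nrm
    · have e : -v i = (-1 : ℝ) • v i := by simp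
      rw [e, hC.lap_smul hB _ a1.1, hD.nrm2_smul _ (hC.test_lap_mem a1.1)]; simpa using a2.lapn
  have hWa := hC.tI_W ha
  have k1 : C.WTo l (fun i => ex (-v i) * C.lap (ex (v i) - 1)) (ex (-a) * C.lap (ex a - 1)) := by
    refine hD.WTo_ex_mul (hD.WTo_neg hW) h0 (n1.mono fun i hi => hi.2.abs) ?_
      (n1.mono fun i hi => hi.2.grad) (L := Λ) ?_ hl
    · filter_upwards [p1.abs, neg_ae a] with x b1 b2
      rwa [b2, abs_neg]
    · rw [hD.Γ_neg_left hWa (hD.neg_mem hWa), hD.Γ_neg_right hWa hWa, neg_neg]; exact p1.grad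
  have e1 : ∀ f ∈ C.TestI, ex (-f) * C.lap (ex f - 1) = C.lap f + C.Γ f f := fun f hf => by
    rw [hC.lap_ex hB hf, ← mul_assoc, ex_neg_mul, one_mul]
  rw [e1 a ha] at k1
  have k2 : C.WTo l (fun i => C.lap (v i) + C.Γ (v i) (v i)) (C.lap a + C.Γ a a) := by
    refine k1.congr ?_
    filter_upwards [hv] with i hi using e1 _ hi
  have k3 : L2To l (fun i => C.Γ (v i) (v i)) (C.Γ a a) :=
    hD.WTo_Γ_L2 hW hW (p2.mono fun i hi => hi.grad) p1.grad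
  have e2 : ∀ f : M →ₘ[m] ℝ, C.lap f + C.Γ f f - C.Γ f f = C.lap f := fun f => by ring
  have k4 : L2To l (fun i => C.lap (v i)) (C.lap a) := by
    have := (hD.WTo_L2 k2).sub k3
    simpa only [e2] using this
  have k5 : C.CTo l v a := ⟨hv.mono fun i hi => hi.1, ha.1, hW, k4, Λ,
    p2.mono fun i hi => hi.grad⟩
  have k6 := hC.CTo_Γ hB k5 k5
  have k7 : C.WTo l (fun i => C.lap (v i)) (C.lap a) := by
    have := hD.WTo_sub k2 k6
    simpa only [e2] using this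
  exact ⟨hv, ha, hW, k7, Λ, h0, p1, p2⟩

end IsGamma

/-! ### the logarithmic heat flow -/

/-- `exp (w s) = P s (exp (w 0))` -/
structure LFlow (C : Calc m) (P : ℝ → (M →ₘ[m] ℝ) → (M →ₘ[m] ℝ)) (T : ℝ)
    (w : ℝ → M →ₘ[m] ℝ) : Prop where
  mem : ∀ s ∈ Icc 0 T, w s ∈ C.TestI
  eq : ∀ s ∈ Icc 0 T, ex (w s) - 1 = P s (ex (w 0) - 1)

section flow

variable {K : ℝ} {P : ℝ → (M →ₘ[m] ℝ) → (M →ₘ[m] ℝ)} (hP : Heat C K P)
variable (hC : IsGamma C) {κ : ℝ} (hB : C.BEi κ)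
variable {T : ℝ} {w : ℝ → M →ₘ[m] ℝ}
include hP hC hB

theorem LFlow.bd (hw : LFlow C P T w) (hT : 0 ≤ T) : ∃ Λ, 0 ≤ Λ ∧ ∀ s ∈ Icc 0 T,
    TBd C Λ (w s) ∧ TBd C Λ (ex (w s) - 1) := by
  obtain ⟨Λ, h0, h⟩ := tbd_log_flow hP hC hB (hw.mem 0 ⟨le_rfl, hT⟩) hT
  exact ⟨Λ, h0, fun s hs => h s hs.1 hs.2 _ (hw.mem s hs) (hw.eq s hs)⟩

theorem LFlow.lap_eq (hw : LFlow C P T w) (hT : 0 ≤ T) {s : ℝ} (hs : s ∈ Icc 0 T) :
    C.lap (ex (w s) - 1) = P s (C.lap (ex (w 0) - 1)) := by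
  rw [hw.eq s hs]
  exact lap_P hP hC hs.1 (hC.ex_testI hB (hw.mem 0 ⟨le_rfl, hT⟩)).1

/-- the heat equation for `exp w` -/
theorem LFlow.DW_ex (hw : LFlow C P T w) (hT : 0 ≤ T) {t : ℝ} (ht : t ∈ Icc 0 T) :
    C.DW (fun s => ex (w s)) (C.lap (ex (w t) - 1)) (Icc 0 T) t := by
  have hD := hC.toIsDir
  have h0 : (0 : ℝ) ∈ Icc 0 T := ⟨le_rfl, hT⟩
  have hF := hC.ex_testI hB (hw.mem 0 h0)
  have e : ∀ s ∈ Icc 0 T, ∀ r ∈ Icc 0 T, ex (w s) - ex (w r)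
      = P s (ex (w 0) - 1) - P r (ex (w 0) - 1) := fun s hs r hr => by
    rw [← hw.eq s hs, ← hw.eq r hr]; ring
  refine ⟨fun r hr => ?_, hC.test_lap_mem (hC.ex_testI hB (hw.mem t ht)).1, ?_⟩
  · rw [e r hr t ht]
    exact hD.sub_mem (hP.memW r hr.1 _ (hC.tI_W hF)).1 (hP.memW t ht.1 _ (hC.tI_W hF)).1
  · have h1 := hP.derivW _ _ (hC.test_isLap hF.1) (hC.test_lap_mem hF.1) t ht.1
    have h2 : 𝓝[Icc 0 T \ {t}] t ≤ 𝓝[Ici 0 \ {t}] t :=
      nhdsWithin_mono _ (diff_subset_diff_left fun x hx => hx.1)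
    refine (h1.mono_left h2).congr' ?_
    filter_upwards [self_mem_nhdsWithin] with s hs
    rw [e s hs.1 t ht, hw.lap_eq hP hC hB hT ht]

/-- the equation for the logarithm -/
theorem LFlow.DW (hw : LFlow C P T w) (hT : 0 ≤ T) {t : ℝ} (ht : t ∈ Icc 0 T) :
    C.DW w (C.lap (w t) + C.Γ (w t) (w t)) (Icc 0 T) t := by
  obtain ⟨Λ, h0, h⟩ := hw.bd hP hC hB hT
  have h1 := hC.toIsDir.DW_log (hw.DW_ex hP hC hB hT ht) ht (fun r hr => hC.tI_A (hw.mem r hr))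
    (fun r hr => (h r hr).1.abs) (fun r hr => (h r hr).1.grad)
  rwa [hC.lap_ex hB (hw.mem t ht), ← mul_assoc, ex_neg_mul, one_mul] at h1

/-- strong continuity of the logarithmic flow -/
theorem LFlow.STo [SigmaFinite m] (hw : LFlow C P T w) (hT : 0 ≤ T) {t : ℝ} (ht : t ∈ Icc 0 T) :
    C.STo (𝓝[Icc 0 T] t) w (w t) := by
  have hD := hC.toIsDir
  obtain ⟨Λ, h0, h⟩ := hw.bd hP hC hB hT
  have h00 : (0 : ℝ) ∈ Icc 0 T := ⟨le_rfl, hT⟩
  have hF := hC.ex_testI hB (hw.mem 0 h00)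
  refine hC.STo_log hB ?_ (hw.mem t ht) h0 (h t ht).1 ?_
    (hD.DW_WTo (hw.DW hP hC hB hT ht) (hC.tI_W (hw.mem t ht))) ?_
  · filter_upwards [self_mem_nhdsWithin] with s hs using hw.mem s hs
  · filter_upwards [self_mem_nhdsWithin] with s hs using (h s hs).1
  · have h1 := hP.contW _ (hC.test_lap_mem hF.1) t ht.1
    have h2 : 𝓝[Icc 0 T] t ≤ 𝓝[Ici 0] t := nhdsWithin_mono _ fun x hx => hx.1
    refine ⟨?_, hC.test_lap_mem (hC.ex_testI hB (hw.mem t ht)).1, ?_⟩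
    · filter_upwards [self_mem_nhdsWithin] with s hs using
        hC.test_lap_mem (hC.ex_testI hB (hw.mem s hs)).1
    · refine (h1.mono_left h2).congr' ?_
      filter_upwards [self_mem_nhdsWithin] with s hs
      rw [hw.lap_eq hP hC hB hT ht, hw.lap_eq hP hC hB hT hs]

end flow

/-- affine change of time -/
theorem IsDir.DW_affine (hC : IsDir C) {f : ℝ → M →ₘ[m] ℝ} {f' : M →ₘ[m] ℝ} {S : Set ℝ} {t : ℝ}
    (h : C.DW f f' S t) {α β t' : ℝ} (hα : α ≠ 0) (ht : α * t' + β = t) :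
    C.DW (fun r => f (α * r + β)) (α • f') ((fun r => α * r + β) ⁻¹' S) t' := by
  subst ht
  refine hC.DW_of_seq (fun r hr => h.mem _ hr) (hC.smul_mem _ _ h.mem') fun r hr => ?_
  have h1 : Sq S (α * t' + β) (fun n => α * r n + β) :=
    ⟨fun n => hr.mem n, fun n hn => hr.ne n (by
      have : α * (r n - t') = 0 := by linarith
      rcases mul_eq_zero.1 this with h | h
      · exact absurd h hα
      · linarith), (hr.lim.const_mul α).add_const β⟩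
  have h2 := hC.TW_smul α (hC.DW_seq h h1)
  have e : ∀ n, α • ((α * r n + β - (α * t' + β))⁻¹ • (f (α * r n + β) - f (α * t' + β)))
      = (r n - t')⁻¹ • (f (α * r n + β) - f (α * t' + β)) := fun n => by
    have h5 : α * r n + β - (α * t' + β) = α * (r n - t') := by ring
    rw [smul_smul, h5, mul_inv, ← mul_assoc, mul_inv_cancel₀ hα, one_mul]
  simpa only [e] using h2

/-! ### pairs -/

section pair

variable {K : ℝ} {P : ℝ → (M →ₘ[m] ℝ) → (M →ₘ[m] ℝ)} (hP : Heat C K P)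
variable (hC : IsGamma C) {κ : ℝ} (hB : C.BEi κ)
variable {ε a b : ℝ} {φ v : ℝ → M →ₘ[m] ℝ} (hp : Pair C P ε a b φ v)
include hC hB hp

/-- the logarithmic flow of `g` -/
theorem Pair.lflow_u : LFlow C P (ε * (b - a) / 2) (fun s => -(ε⁻¹ • v (2 / ε * s + a))) := by
  have hε := hp.hε
  have hε' := hε.ne'
  have hmem : ∀ s ∈ Icc 0 (ε * (b - a) / 2), 2 / ε * s + a ∈ Icc a b := fun s hs => by
    have h1 : 0 ≤ 2 / ε := by positivity
    have h2 := mul_le_mul_of_nonneg_left hs.2 h1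
    have h3 := mul_nonneg h1 hs.1
    have h4 : 2 / ε * (ε * (b - a) / 2) = b - a := by field_simp
    exact ⟨by linarith, by linarith⟩
  refine ⟨fun s hs => hC.testI_neg hB (hC.testI_smul hB _ (hp.u_mem _ (hmem s hs))),
    fun s hs => ?_⟩
  have h1 := hp.g_eq _ (hmem s hs)
  have h2 : ε * (2 / ε * s + a - a) / 2 = s := by field_simp; ring
  rw [h2] at h1
  simp only [mul_zero, zero_add]
  exact h1

/-- the logarithmic flow of `f` -/
theorem Pair.lflow_φ : LFlow C P (ε * (b - a) / 2) (fun s => ε⁻¹ • φ (-(2 / ε) * s + b)) := by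
  have hε := hp.hε
  have hε' := hε.ne'
  have hmem : ∀ s ∈ Icc 0 (ε * (b - a) / 2), -(2 / ε) * s + b ∈ Icc a b := fun s hs => by
    have h1 : 0 ≤ 2 / ε := by positivity
    have h2 := mul_le_mul_of_nonneg_left hs.2 h1
    have h3 := mul_nonneg h1 hs.1
    have h4 : 2 / ε * (ε * (b - a) / 2) = b - a := by field_simp
    exact ⟨by linarith, by linarith⟩
  refine ⟨fun s hs => hC.testI_smul hB _ (hp.φ_mem _ (hmem s hs)), fun s hs => ?_⟩
  have h1 := hp.f_eq _ (hmem s hs)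
  have h2 : ε * (b - (-(2 / ε) * s + b)) / 2 = s := by field_simp; ring
  rw [h2] at h1
  simp only [mul_zero, zero_add]
  exact h1

omit hC hB in
theorem Pair.hT : 0 ≤ ε * (b - a) / 2 := by
  have := hp.hε
  have : 0 ≤ b - a := by linarith [hp.hab]
  positivity

omit hC hB in
theorem Pair.tu {t : ℝ} (ht : t ∈ Icc a b) : ε / 2 * t + -(ε / 2 * a) ∈ Icc 0 (ε * (b - a) / 2) := by
  have h1 : 0 ≤ ε / 2 := by have := hp.hε; positivity
  have h2 := mul_le_mul_of_nonneg_left ht.1 h1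
  have h3 := mul_le_mul_of_nonneg_left ht.2 h1
  exact ⟨by linarith, by linarith⟩

omit hC hB in
theorem Pair.tφ {t : ℝ} (ht : t ∈ Icc a b) : -(ε / 2) * t + ε / 2 * b ∈ Icc 0 (ε * (b - a) / 2) := by
  have h1 : 0 ≤ ε / 2 := by have := hp.hε; positivity
  have h2 := mul_le_mul_of_nonneg_left ht.1 h1
  have h3 := mul_le_mul_of_nonneg_left ht.2 h1
  exact ⟨by linarith, by linarith⟩

omit hC hB in
theorem Pair.eu (r : ℝ) : -(ε⁻¹ • v (2 / ε * (ε / 2 * r + -(ε / 2 * a)) + a)) = -(ε⁻¹ • v r) := by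
  have hε' := hp.hε.ne'
  have : 2 / ε * (ε / 2 * r + -(ε / 2 * a)) + a = r := by field_simp; ring
  rw [this]

omit hC hB in
theorem Pair.eφ (r : ℝ) : ε⁻¹ • φ (-(2 / ε) * (-(ε / 2) * r + ε / 2 * b) + b) = ε⁻¹ • φ r := by
  have hε' := hp.hε.ne'
  have : -(2 / ε) * (-(ε / 2) * r + ε / 2 * b) + b = r := by field_simp; ring
  rw [this]

include hP

theorem Pair.DW_g {t : ℝ} (ht : t ∈ Icc a b) : C.DW (fun r => ex (-(ε⁻¹ • v r)))
    ((ε / 2) • C.lap (ex (-(ε⁻¹ • v t)) - 1)) (Icc a b) t := by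
  have h1 := (hp.lflow_u hC hB).DW_ex hP hC hB hp.hT (hp.tu ht)
  have h2 := hC.toIsDir.DW_affine h1 (α := ε / 2) (β := -(ε / 2 * a)) (t' := t)
    (by have := hp.hε; positivity) rfl
  simp only [hp.eu] at h2
  exact IsDir.DW_mono h2 fun r hr => hp.tu hr

theorem Pair.DW_f {t : ℝ} (ht : t ∈ Icc a b) : C.DW (fun r => ex (ε⁻¹ • φ r))
    (-((ε / 2) • C.lap (ex (ε⁻¹ • φ t) - 1))) (Icc a b) t := by
  have h1 := (hp.lflow_φ hC hB).DW_ex hP hC hB hp.hT (hp.tφ ht)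
  have h2 := hC.toIsDir.DW_affine h1 (α := -(ε / 2)) (β := ε / 2 * b) (t' := t)
    (by have := hp.hε; exact neg_ne_zero.2 (by positivity)) rfl
  simp only [hp.eφ, neg_smul] at h2
  exact IsDir.DW_mono h2 fun r hr => hp.tφ hr

/-- `u' = (ε/2) Δu - ½ |∇u|²` in `W` -/
theorem Pair.DW_u {t : ℝ} (ht : t ∈ Icc a b) : C.DW v
    ((ε / 2) • C.lap (v t) - (2 : ℝ)⁻¹ • C.Γ (v t) (v t)) (Icc a b) t := by
  have hε := hp.hε
  have hε' := hε.ne'
  have hD := hC.toIsDir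
  have h1 := (hp.lflow_u hC hB).DW hP hC hB hp.hT (hp.tu ht)
  have h2 := hD.DW_affine h1 (α := ε / 2) (β := -(ε / 2 * a)) (t' := t) (by positivity) rfl
  simp only [hp.eu] at h2
  have h3 := hD.DW_smul (-ε) (IsDir.DW_mono (S := Icc a b) h2 fun r hr => hp.tu hr)
  have e1 : ∀ k : M →ₘ[m] ℝ, (-ε) • -(ε⁻¹ • k) = k := fun k => by
    rw [smul_neg, neg_smul, neg_neg, smul_smul, mul_inv_cancel₀ hε', one_smul]
  simp only [e1] at h3
  have hv := hp.u_mem t ht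
  have hW := hC.tI_W hv
  have e2 : -(ε⁻¹ • v t) = (-ε⁻¹) • v t := by rw [neg_smul]
  rw [e2, hC.lap_smul hB _ hv.1, hD.smul_left _ _ hW _ (hD.smul_mem _ _ hW),
    hD.Γ_smul_right _ hW hW] at h3
  have e3 : (-ε) • (ε / 2) • (-ε⁻¹ • C.lap (v t) + -ε⁻¹ • -ε⁻¹ • C.Γ (v t) (v t))
      = (ε / 2) • C.lap (v t) - (2 : ℝ)⁻¹ • C.Γ (v t) (v t) := by
    rw [smul_add, smul_add]
    simp only [smul_smul]
    have c1 : -ε * (ε / 2 * -ε⁻¹) = ε / 2 := by field_simp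
    have c2 : -ε * (ε / 2 * (-ε⁻¹ * -ε⁻¹)) = -(2 : ℝ)⁻¹ := by field_simp
    rw [c1, c2, neg_smul, sub_eq_add_neg]
  rwa [e3] at h3

/-- `φ' = -(ε/2) Δφ - ½ |∇φ|²` in `W` -/
theorem Pair.DW_φ {t : ℝ} (ht : t ∈ Icc a b) : C.DW φ
    (-((ε / 2) • C.lap (φ t)) - (2 : ℝ)⁻¹ • C.Γ (φ t) (φ t)) (Icc a b) t := by
  have hε := hp.hε
  have hε' := hε.ne'
  have hD := hC.toIsDir
  have h1 := (hp.lflow_φ hC hB).DW hP hC hB hp.hT (hp.tφ ht)
  have h2 := hD.DW_affine h1 (α := -(ε / 2)) (β := ε / 2 * b) (t' := t)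
    (neg_ne_zero.2 (by positivity)) rfl
  simp only [hp.eφ] at h2
  have h3 := hD.DW_smul ε (IsDir.DW_mono (S := Icc a b) h2 fun r hr => hp.tφ hr)
  have e1 : ∀ k : M →ₘ[m] ℝ, ε • (ε⁻¹ • k) = k := fun k => by
    rw [smul_smul, mul_inv_cancel₀ hε', one_smul]
  simp only [e1] at h3
  have hv := hp.φ_mem t ht
  have hW := hC.tI_W hv
  rw [hC.lap_smul hB _ hv.1, hD.smul_left _ _ hW _ (hD.smul_mem _ _ hW),
    hD.Γ_smul_right _ hW hW] at h3
  have e3 : ε • -(ε / 2) • (ε⁻¹ • C.lap (φ t) + ε⁻¹ • ε⁻¹ • C.Γ (φ t) (φ t))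
      = -((ε / 2) • C.lap (φ t)) - (2 : ℝ)⁻¹ • C.Γ (φ t) (φ t) := by
    rw [smul_add, smul_add]
    simp only [smul_smul]
    have c1 : ε * (-(ε / 2) * ε⁻¹) = -(ε / 2) := by field_simp
    have c2 : ε * (-(ε / 2) * (ε⁻¹ * ε⁻¹)) = -(2 : ℝ)⁻¹ := by field_simp
    rw [c1, c2, neg_smul, neg_smul, sub_eq_add_neg]
  rwa [e3] at h3

/-- strong continuity of `u` -/
theorem Pair.STo_u [SigmaFinite m] {t : ℝ} (ht : t ∈ Icc a b) :
    C.STo (𝓝[Icc a b] t) v (v t) := by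
  have hε' := hp.hε.ne'
  have h1 := (hp.lflow_u hC hB).STo hP hC hB hp.hT (hp.tu ht)
  have h2 : Tendsto (fun r : ℝ => ε / 2 * r + -(ε / 2 * a)) (𝓝[Icc a b] t)
      (𝓝[Icc 0 (ε * (b - a) / 2)] (ε / 2 * t + -(ε / 2 * a))) := by
    refine tendsto_nhdsWithin_iff.2 ⟨?_, ?_⟩
    · exact (((tendsto_id (α := ℝ)).const_mul (ε / 2)).add_const _).mono_left
        nhdsWithin_le_nhds
    · filter_upwards [self_mem_nhdsWithin] with r hr using hp.tu hr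
  have h3 := hC.STo_smul hB (-ε) (h1.comp h2)
  simp only [hp.eu] at h3
  have e1 : ∀ k : M →ₘ[m] ℝ, (-ε) • -(ε⁻¹ • k) = k := fun k => by
    rw [smul_neg, neg_smul, neg_neg, smul_smul, mul_inv_cancel₀ hε', one_smul]
  simpa only [e1] using h3

/-- strong continuity of `φ` -/
theorem Pair.STo_φ [SigmaFinite m] {t : ℝ} (ht : t ∈ Icc a b) :
    C.STo (𝓝[Icc a b] t) φ (φ t) := by
  have hε' := hp.hε.ne'
  have h1 := (hp.lflow_φ hC hB).STo hP hC hB hp.hT (hp.tφ ht)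
  have h2 : Tendsto (fun r : ℝ => -(ε / 2) * r + ε / 2 * b) (𝓝[Icc a b] t)
      (𝓝[Icc 0 (ε * (b - a) / 2)] (-(ε / 2) * t + ε / 2 * b)) := by
    refine tendsto_nhdsWithin_iff.2 ⟨?_, ?_⟩
    · exact (((tendsto_id (α := ℝ)).const_mul (-(ε / 2))).add_const _).mono_left
        nhdsWithin_le_nhds
    · filter_upwards [self_mem_nhdsWithin] with r hr using hp.tφ hr
  have h3 := hC.STo_smul hB ε (h1.comp h2)
  simp only [hp.eφ] at h3
  have e1 : ∀ k : M →ₘ[m] ℝ, ε • (ε⁻¹ • k) = k := fun k => by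
    rw [smul_smul, mul_inv_cancel₀ hε', one_smul]
  simpa only [e1] using h3

theorem Pair.STo_L [SigmaFinite m] {t : ℝ} (ht : t ∈ Icc a b) :
    C.STo (𝓝[Icc a b] t) (LL ε φ v) (LL ε φ v t) :=
  hC.STo_smul hB _ (hC.STo_sub hB (hp.STo_φ hP hC hB ht) (hp.STo_u hP hC hB ht))

theorem Pair.STo_th [SigmaFinite m] {t : ℝ} (ht : t ∈ Icc a b) :
    C.STo (𝓝[Icc a b] t) (th φ v) (th φ v t) :=
  hC.STo_smul hB _ (hC.STo_add hB (hp.STo_φ hP hC hB ht) (hp.STo_u hP hC hB ht))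

theorem Pair.STo_rh [SigmaFinite m] {t : ℝ} (ht : t ∈ Icc a b) :
    C.STo (𝓝[Icc a b] t) (fun r => rh ε φ v r - 1) (rh ε φ v t - 1) :=
  hC.STo_ex hB (hp.STo_L hP hC hB ht)

/-- `L' = -(Δθ + ⟨∇L,∇θ⟩)` -/
theorem Pair.DW_L {t : ℝ} (ht : t ∈ Icc a b) : C.DW (LL ε φ v)
    (-(C.lap (th φ v t) + C.Γ (LL ε φ v t) (th φ v t))) (Icc a b) t := by
  have hε' := hp.hε.ne'
  have hD := hC.toIsDir
  have h1 := hD.DW_smul ε⁻¹ (hD.DW_sub (hp.DW_φ hP hC hB ht) (hp.DW_u hP hC hB ht))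
  have hφ := hp.φ_mem t ht
  have hu := hp.u_mem t ht
  have hφW := hC.tI_W hφ
  have huW := hC.tI_W hu
  have e : ε⁻¹ • (-((ε / 2) • C.lap (φ t)) - (2 : ℝ)⁻¹ • C.Γ (φ t) (φ t)
      - ((ε / 2) • C.lap (v t) - (2 : ℝ)⁻¹ • C.Γ (v t) (v t)))
      = -(C.lap (th φ v t) + C.Γ (LL ε φ v t) (th φ v t)) := by
    unfold th LL
    rw [hC.lap_smul hB _ (hC.test_add hB hφ.1 hu.1), hC.lap_add hB hφ.1 hu.1,
      hD.smul_left _ _ (hD.sub_mem hφW huW) _ (hD.smul_mem _ _ (hD.add_mem _ hφW _ huW)),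
      hD.Γ_smul_right _ (hD.sub_mem hφW huW) (hD.add_mem _ hφW _ huW),
      hD.Γ_sub_left hφW huW (hD.add_mem _ hφW _ huW), hD.Γ_add_right hφW hφW huW,
      hD.Γ_add_right huW hφW huW, hC.symm _ huW _ hφW]
    match_scalars <;> field_simp <;> ring
  rwa [e] at h1

/-- `θ' + ½ |∇θ|² = -(ε²/8) (2 ΔL + |∇L|²)` -/
theorem Pair.DW_th {t : ℝ} (ht : t ∈ Icc a b) : C.DW (th φ v)
    (-((2 : ℝ)⁻¹ • C.Γ (th φ v t) (th φ v t))
      - (ε ^ 2 / 8) • ((2 : ℝ) • C.lap (LL ε φ v t) + C.Γ (LL ε φ v t) (LL ε φ v t)))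
    (Icc a b) t := by
  have hε' := hp.hε.ne'
  have hD := hC.toIsDir
  have h1 := hD.DW_smul (2 : ℝ)⁻¹ (hD.DW_add (hp.DW_φ hP hC hB ht) (hp.DW_u hP hC hB ht))
  have hφ := hp.φ_mem t ht
  have hu := hp.u_mem t ht
  have hφW := hC.tI_W hφ
  have huW := hC.tI_W hu
  have e : (2 : ℝ)⁻¹ • (-((ε / 2) • C.lap (φ t)) - (2 : ℝ)⁻¹ • C.Γ (φ t) (φ t)
      + ((ε / 2) • C.lap (v t) - (2 : ℝ)⁻¹ • C.Γ (v t) (v t)))
      = -((2 : ℝ)⁻¹ • C.Γ (th φ v t) (th φ v t)) - (ε ^ 2 / 8) •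
        ((2 : ℝ) • C.lap (LL ε φ v t) + C.Γ (LL ε φ v t) (LL ε φ v t)) := by
    have hs := hC.testI_sub hB hφ hu
    have l1 : C.lap (φ t - v t) = C.lap (φ t) - C.lap (v t) := by
      have e0 : φ t - v t = φ t + (-1 : ℝ) • v t := by simp [sub_eq_add_neg]
      rw [e0, hC.lap_add hB hφ.1 (hC.test_smul hB _ hu.1), hC.lap_smul hB _ hu.1]
      simp [sub_eq_add_neg]
    unfold th LL
    rw [hC.lap_smul hB _ hs.1, l1,
      hD.smul_left _ _ (hD.add_mem _ hφW _ huW) _ (hD.smul_mem _ _ (hD.add_mem _ hφW _ huW)),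
      hD.Γ_smul_right _ (hD.add_mem _ hφW _ huW) (hD.add_mem _ hφW _ huW),
      hD.add_left _ hφW _ huW _ (hD.add_mem _ hφW _ huW), hD.Γ_add_right hφW hφW huW,
      hD.Γ_add_right huW hφW huW,
      hD.smul_left _ _ (hD.sub_mem hφW huW) _ (hD.smul_mem _ _ (hD.sub_mem hφW huW)),
      hD.Γ_smul_right _ (hD.sub_mem hφW huW) (hD.sub_mem hφW huW),
      hD.Γ_sub_left hφW huW (hD.sub_mem hφW huW), hD.Γ_sub_right hφW hφW huW,
      hD.Γ_sub_right huW hφW huW, hC.symm _ huW _ hφW]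
    match_scalars <;> field_simp <;> ring
  rwa [e] at h1

/-- the continuity equation: `ρ' = -div (ρ ∇θ)` -/
theorem Pair.DW_rh {t : ℝ} (ht : t ∈ Icc a b) : C.DW (rh ε φ v)
    (-(C.Γ (rh ε φ v t - 1) (th φ v t) + rh ε φ v t * C.lap (th φ v t))) (Icc a b) t := by
  have hD := hC.toIsDir
  obtain ⟨Λ, h0, H⟩ := pair_bounds hP hC hB hp
  have hm := fun r (hr : r ∈ Icc a b) => pair_mem hP hC hB hp hr
  have h1 := hD.DW_ex (hp.DW_L hP hC hB ht) ht (fun r hr => hC.tI_A (hm r hr).1)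
    (fun r hr => (H r hr).2.2.2.2.1.abs) (fun r hr => (H r hr).2.2.2.2.1.grad)
  have e : ex (LL ε φ v t) * -(C.lap (th φ v t) + C.Γ (LL ε φ v t) (th φ v t))
      = -(C.Γ (rh ε φ v t - 1) (th φ v t) + rh ε φ v t * C.lap (th φ v t)) := by
    have e1 : C.Γ (rh ε φ v t - 1) (th φ v t) = ex (LL ε φ v t) * C.Γ (LL ε φ v t) (th φ v t) :=
      hD.Γ_ex (hC.tI_A (hm t ht).1) (hC.tI_W (hm t ht).2.1)
    have e2 : rh ε φ v t = ex (LL ε φ v t) := rfl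
    rw [e1, e2]; ring
  rw [e] at h1
  exact h1

/-- literal forms of the derivatives of `u` and `φ` -/
theorem Pair.tendsto_u {t : ℝ} (ht : t ∈ Icc a b) :
    Tendsto (fun r => C.nrm2 ((r - t)⁻¹ • (v r - v t)
      - ((ε / 2) • C.lap (v t) - (2 : ℝ)⁻¹ • C.Γ (v t) (v t)))) (𝓝[Icc a b \ {t}] t) (𝓝 0) :=
  (hp.DW_u hP hC hB ht).lim

theorem Pair.tendsto_φ {t : ℝ} (ht : t ∈ Icc a b) :
    Tendsto (fun r => C.nrm2 ((r - t)⁻¹ • (φ r - φ t)
      - (-((ε / 2) • C.lap (φ t)) - (2 : ℝ)⁻¹ • C.Γ (φ t) (φ t)))) (𝓝[Icc a b \ {t}] t) (𝓝 0) :=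
  (hp.DW_φ hP hC hB ht).lim

end pair

end Vale.Agent.P233
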