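import Vale.Agent.P233.H748.Ex
import Vale.Agent.P233.H66.Time2
import Vale.Agent.P233.H545.LimW

/-! # Difference quotients of exponentials and logarithms in the Sobolev norm -/

set_option linter.all false

open MeasureTheory Filter Topology Set
open scoped ENNReal NNReal

namespace Vale.Agent.P233

/-! ### the function `(exp s - 1)/s` -/

/-- `(exp s - 1)/s`, and `1` at `0` -/
noncomputable def exq : ℝ → ℝ := dslope Real.exp 0

theorem exq_zero : exq 0 = 1 := by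
  rw [exq, dslope_same, Real.deriv_exp, Real.exp_zero]

theorem exq_mul (s : ℝ) : s * exq s = Real.exp s - 1 := by
  have := sub_smul_dslope Real.exp 0 s
  rwa [sub_zero, smul_eq_mul, Real.exp_zero] at this

theorem exq_pos (s : ℝ) : 0 < exq s := by
  rcases eq_or_ne s 0 with h | h
  · rw [h, exq_zero]; exact one_pos
  · have h1 := exq_mul s
    rcases lt_or_gt_of_ne h with h2 | h2
    · have : Real.exp s < 1 := by rw [← Real.exp_zero]; exact Real.exp_lt_exp.2 h2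
      by_contra h3
      have : 0 ≤ s * exq s := mul_nonneg_of_nonpos_of_nonpos h2.le (not_lt.1 h3)
      linarith
    · have : 1 < Real.exp s := Real.one_lt_exp_iff.2 h2
      by_contra h3
      have : s * exq s ≤ 0 := mul_nonpos_of_nonneg_of_nonpos h2.le (not_lt.1 h3)
      linarith

theorem exq_analytic (s : ℝ) : AnalyticAt ℝ exq s := by
  have he : ∀ x, AnalyticAt ℝ Real.exp x := fun x => analyticAt_rexp
  rcases eq_or_ne s 0 with h | h
  · subst h
    obtain ⟨p, hp⟩ := he 0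
    exact ⟨_, hp.has_fpower_series_dslope_fslope⟩
  · have h1 : AnalyticAt ℝ (_root_.slope Real.exp 0) s := by
      have : _root_.slope Real.exp 0 = fun x => (x - 0)⁻¹ * (Real.exp x - Real.exp 0) := by
        funext x; rw [slope_def_field, div_eq_inv_mul]
      rw [this]
      have h2 : AnalyticAt ℝ (fun x : ℝ => x - 0) s := analyticAt_id.sub analyticAt_const
      exact (h2.inv (by simpa using h)).mul ((he s).sub analyticAt_const)
    exact h1.congr (dslope_eventuallyEq_slope_of_ne Real.exp h).symm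

theorem exq_contDiff : ContDiff ℝ 3 exq := contDiff_iff_contDiffAt.2 fun s =>
  (exq_analytic s).contDiffAt

theorem exq_A : ∃ Ψ' : ℝ → ℝ, Continuous Ψ' ∧
    ∀ t, HasDerivAt (fun s => exq s - 1) (Ψ' t) t := by
  have h1 : ContDiff ℝ 1 fun s => exq s - 1 := (exq_contDiff.of_le (by norm_num)).sub contDiff_const
  exact ⟨deriv fun s => exq s - 1, h1.continuous_deriv le_rfl,
    fun t => (h1.differentiable (by norm_num) t).hasDerivAt⟩

theorem exq_B : ∃ Ψ' : ℝ → ℝ, Continuous Ψ' ∧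
    ∀ t, HasDerivAt (fun s => (exq s)⁻¹ - 1) (Ψ' t) t := by
  have h1 : ContDiff ℝ 1 fun s => (exq s)⁻¹ - 1 :=
    ((exq_contDiff.of_le (by norm_num)).inv fun s => (exq_pos s).ne').sub contDiff_const
  exact ⟨deriv fun s => (exq s)⁻¹ - 1, h1.continuous_deriv le_rfl,
    fun t => (h1.differentiable (by norm_num) t).hasDerivAt⟩

variable {M : Type*} [MeasurableSpace M] {m : Measure M} {C : Calc m}

namespace IsDir

variable (hC : IsDir C)
include hC
variable {ι : Type*} {l : Filter ι} {u v w : ι → M →ₘ[m] ℝ} {a b w' : M →ₘ[m] ℝ} {K L : ℝ}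

omit hC in
theorem comp_zero' {Ψ : ℝ → ℝ} (hc : Continuous Ψ) (h0 : Ψ 0 = 0) :
    AEEqFun.comp Ψ hc (0 : M →ₘ[m] ℝ) = 0 := by
  rw [eq_iff_ae]
  filter_upwards [AEEqFun.coeFn_comp Ψ hc (0 : M →ₘ[m] ℝ), zero_ae (M := M) (m := m)] with x a1 a2
  rw [a1, Function.comp_apply, a2, h0]

/-- composition with a `C¹` function: bounds -/
theorem comp_bd {Ψ Ψ' : ℝ → ℝ} (hc : Continuous Ψ) (hc' : Continuous Ψ')
    (hd : ∀ t, HasDerivAt Ψ (Ψ' t) t) (h0 : Ψ 0 = 0) (K L : ℝ) : ∃ B B' : ℝ, 0 ≤ B ∧ 0 ≤ B' ∧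
    ∀ w ∈ C.W, (∀ᵐ x ∂m, |w x| ≤ K) → (∀ᵐ x ∂m, C.Γ w w x ≤ L) →
      (∀ᵐ x ∂m, |AEEqFun.comp Ψ hc w x| ≤ B) ∧ AEEqFun.comp Ψ hc w ∈ C.A ∧
      (∀ᵐ x ∂m, C.Γ (AEEqFun.comp Ψ hc w) (AEEqFun.comp Ψ hc w) x ≤ B') := by
  obtain ⟨B, hB⟩ := (isCompact_Icc (a := -K) (b := K)).exists_bound_of_continuousOn
    hc.continuousOn
  obtain ⟨D, hD⟩ := (isCompact_Icc (a := -K) (b := K)).exists_bound_of_continuousOn
    hc'.continuousOn
  refine ⟨|B|, |D| ^ 2 * |L|, abs_nonneg _, by positivity, fun w hw hK hL => ?_⟩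
  obtain ⟨h1, h2⟩ := hC.chain_bdd hw hK hc hc' (fun t _ => (hd t).hasDerivWithinAt) h0
  have hb : ∀ᵐ x ∂m, |AEEqFun.comp Ψ hc w x| ≤ |B| := by
    filter_upwards [AEEqFun.coeFn_comp Ψ hc w, hK] with x a1 a2
    rw [a1, Function.comp_apply, ← Real.norm_eq_abs]
    exact (hB _ (abs_le.1 a2)).trans (le_abs_self _)
  refine ⟨hb, ⟨h1, mem_top_iff.2 ⟨|B|, hb⟩⟩, ?_⟩
  have e : C.Γ (AEEqFun.comp Ψ hc w) (AEEqFun.comp Ψ hc w)
      = AEEqFun.comp Ψ' hc' w * (AEEqFun.comp Ψ' hc' w * C.Γ w w) := by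
    rw [h2 _ h1, hC.symm _ hw _ h1, h2 _ hw]
  rw [e]
  filter_upwards [mul_ae (AEEqFun.comp Ψ' hc' w) (AEEqFun.comp Ψ' hc' w * C.Γ w w),
    mul_ae (AEEqFun.comp Ψ' hc' w) (C.Γ w w), AEEqFun.coeFn_comp Ψ' hc' w, hK, hL,
    hC.Γ_nonneg_ae hw] with x a1 a2 a3 a4 a5 a6
  rw [a1, a2, a3, Function.comp_apply]
  have h3 : |Ψ' (w x)| ≤ |D| := by
    rw [← Real.norm_eq_abs]; exact (hD _ (abs_le.1 a4)).trans (le_abs_self _)
  have h4 : Ψ' (w x) ^ 2 ≤ |D| ^ 2 := by rw [← sq_abs]; exact pow_le_pow_left₀ (abs_nonneg _) h3 2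
  have h5 : C.Γ w w x ≤ |L| := a5.trans (le_abs_self _)
  calc Ψ' (w x) * (Ψ' (w x) * C.Γ w w x) = Ψ' (w x) ^ 2 * C.Γ w w x := by ring
    _ ≤ |D| ^ 2 * |L| := mul_le_mul h4 h5 a6 (by positivity)

/-- `Ψ (w i) * v i → 0` if `w i → 0` and `v i` converges -/
theorem WTo_comp_mul [l.IsCountablyGenerated] (h : C.WTo l w 0) (hK0 : 0 ≤ K) (hL0 : 0 ≤ L)
    (hK : BdTo l w K) (hL : ∀ᶠ i in l, ∀ᵐ x ∂m, C.Γ (w i) (w i) x ≤ L) {Ψ Ψ' : ℝ → ℝ}
    (hc : Continuous Ψ) (hc' : Continuous Ψ') (hd : ∀ t, HasDerivAt Ψ (Ψ' t) t) (h0 : Ψ 0 = 0)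
    (hv : C.WTo l v b) : C.WTo l (fun i => AEEqFun.comp Ψ hc (w i) * v i) 0 := by
  have hz : ∀ᵐ x ∂m, -K ≤ (0 : M →ₘ[m] ℝ) x ∧ (0 : M →ₘ[m] ℝ) x ≤ K := by
    filter_upwards [zero_ae (M := M) (m := m)] with x a1
    rw [a1]; exact ⟨by linarith, hK0⟩
  have h1 : C.WTo l (fun i => AEEqFun.comp Ψ hc (w i)) (AEEqFun.comp Ψ hc 0) :=
    hC.WTo_comp h (p := -K) (q := K) (by linarith) hK0
      (by filter_upwards [hK] with i hi
          filter_upwards [hi] with x hx using abs_le.1 hx) hz hc hc'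
      (fun t _ => (hd t).hasDerivWithinAt) h0
  rw [comp_zero' hc h0] at h1
  obtain ⟨B, B', hB0, hB0', hB⟩ := hC.comp_bd hc hc' hd h0 K L
  have h2 : ∀ᶠ i in l, (∀ᵐ x ∂m, |AEEqFun.comp Ψ hc (w i) x| ≤ B) ∧
      AEEqFun.comp Ψ hc (w i) ∈ C.A ∧ (∀ᵐ x ∂m,
        C.Γ (AEEqFun.comp Ψ hc (w i)) (AEEqFun.comp Ψ hc (w i)) x ≤ B') := by
    filter_upwards [hK, hL, h.mem] with i a1 a2 a3 using hB _ a3 a1 a2
  have h3 := hC.WTo_mul h1 hv (K := B) (L := B') (h2.mono fun i hi => hi.1)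
    (by filter_upwards [zero_ae (M := M) (m := m)] with x a1
        rw [a1, abs_zero]; exact hB0) (h2.mono fun i hi => hi.2.2)
    (by rw [hC.Γ_zero_left hC.zero_mem]
        filter_upwards [zero_ae (M := M) (m := m)] with x a1
        rw [a1]; exact hB0')
  rwa [zero_mul] at h3

/-- difference quotients at `0` of `exp` -/
theorem WTo_exq [l.IsCountablyGenerated] (h : C.WTo l w 0) (hK0 : 0 ≤ K) (hL0 : 0 ≤ L)
    (hK : BdTo l w K) (hL : ∀ᶠ i in l, ∀ᵐ x ∂m, C.Γ (w i) (w i) x ≤ L) {c : ι → ℝ}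
    (hw : C.WTo l (fun i => c i • w i) w') : C.WTo l (fun i => c i • (ex (w i) - 1)) w' := by
  obtain ⟨Ψ', hc', hd⟩ := exq_A
  have hc : Continuous fun s => exq s - 1 := exq_contDiff.continuous.sub continuous_const
  have h1 := hC.WTo_comp_mul h hK0 hL0 hK hL hc hc' hd (by simp [exq_zero]) hw
  have h2 := hC.WTo_add hw h1
  rw [add_zero] at h2
  refine h2.congr (Eventually.of_forall fun i => ?_)
  rw [eq_iff_ae]
  filter_upwards [add_ae (c i • w i) (AEEqFun.comp (fun s => exq s - 1) hc (w i) * (c i • w i)),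
    mul_ae (AEEqFun.comp (fun s => exq s - 1) hc (w i)) (c i • w i), smul_ae (w i) (c i),
    AEEqFun.coeFn_comp (fun s => exq s - 1) hc (w i), smul_ae (ex (w i) - 1) (c i),
    sub_ae (ex (w i)) 1, one_ae (M := M) (m := m), ex_ae (w i)] with x a1 a2 a3 a4 a5 a6 a7 a8
  rw [a1, a2, a3, a4, a5, a6, a7, a8, Function.comp_apply, ← exq_mul]
  ring

/-- difference quotients at `0` of `log` -/
theorem WTo_loq [l.IsCountablyGenerated] (h : C.WTo l w 0) (hK0 : 0 ≤ K) (hL0 : 0 ≤ L)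
    (hK : BdTo l w K) (hL : ∀ᶠ i in l, ∀ᵐ x ∂m, C.Γ (w i) (w i) x ≤ L) {c : ι → ℝ}
    (hw : C.WTo l (fun i => c i • (ex (w i) - 1)) w') : C.WTo l (fun i => c i • w i) w' := by
  obtain ⟨Ψ', hc', hd⟩ := exq_B
  have hc : Continuous fun s => (exq s)⁻¹ - 1 :=
    (exq_contDiff.continuous.inv₀ fun s => (exq_pos s).ne').sub continuous_const
  have h1 := hC.WTo_comp_mul h hK0 hL0 hK hL hc hc' hd (by simp [exq_zero]) hw
  have h2 := hC.WTo_add hw h1
  rw [add_zero] at h2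
  refine h2.congr (Eventually.of_forall fun i => ?_)
  rw [eq_iff_ae]
  filter_upwards [add_ae (c i • (ex (w i) - 1))
      (AEEqFun.comp (fun s => (exq s)⁻¹ - 1) hc (w i) * (c i • (ex (w i) - 1))),
    mul_ae (AEEqFun.comp (fun s => (exq s)⁻¹ - 1) hc (w i)) (c i • (ex (w i) - 1)),
    smul_ae (w i) (c i), AEEqFun.coeFn_comp (fun s => (exq s)⁻¹ - 1) hc (w i),
    smul_ae (ex (w i) - 1) (c i), sub_ae (ex (w i)) 1, one_ae (M := M) (m := m),
    ex_ae (w i)] with x a1 a2 a3 a4 a5 a6 a7 a8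
  rw [a1, a2, a3, a4, a5, a6, a7, a8, Function.comp_apply, ← exq_mul]
  have := (exq_pos (w i x)).ne'
  field_simp
  ring

/-- `p = exp w - 1 → 0` implies `w → 0` -/
theorem WTo_log_zero (hA : ∀ᶠ i in l, w i ∈ C.A) (hK : BdTo l w K)
    (h : C.WTo l (fun i => ex (w i) - 1) 0) : C.WTo l w 0 := by
  refine ⟨hA.mono fun i hi => hi.1, hC.zero_mem, ?_⟩
  have h1 := h.lim.const_mul (Real.exp (2 * K))
  rw [mul_zero] at h1
  refine squeeze_zero' ?_ ?_ h1
  · filter_upwards [hA] with i hi using hC.nrm2_nonneg (hC.sub_mem hi.1 hC.zero_mem)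
  filter_upwards [hA, hK] with i hi hk
  rw [sub_zero, sub_zero]
  unfold Calc.nrm2
  rw [mul_add]
  have hp := hC.ex_A hi
  refine add_le_add ?_ ?_
  · rw [← I_smul]
    refine I_mono (mem_sq (hC.memLp _ hi.1)) (mem_smul _ (mem_sq (hC.memLp _ hp.1))) ?_
    rw [le_iff_ae]
    filter_upwards [sq_ae (w i), smul_ae ((ex (w i) - 1) ^ 2) (Real.exp (2 * K)),
      sq_ae (ex (w i) - 1), sub_ae (ex (w i)) 1, one_ae (M := M) (m := m), ex_ae (w i), hk]
      with x a1 a2 a3 a4 a5 a6 a7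
    rw [a1, a2, a3, a4, a5, a6]
    have h3 : |w i x| ≤ Real.exp K * |Real.exp (w i x) - 1| := by
      rcases le_total 0 (w i x) with h4 | h4
      · have h5 := Real.add_one_le_exp (w i x)
        have h6 : 0 ≤ Real.exp (w i x) - 1 := by linarith
        rw [abs_of_nonneg h4, abs_of_nonneg h6]
        have h7 : 1 ≤ Real.exp K := Real.one_le_exp ((abs_nonneg _).trans a7)
        nlinarith
      · have h5 := Real.add_one_le_exp (-(w i x))
        have h6 : Real.exp (w i x) - 1 ≤ 0 := by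
          have := Real.exp_le_one_iff.2 h4
          linarith
        rw [abs_of_nonpos h4, abs_of_nonpos h6]
        have h7 : Real.exp (-(w i x)) ≤ Real.exp K :=
          Real.exp_le_exp.2 ((neg_le_abs _).trans a7)
        have h8 : -(Real.exp (w i x) - 1) = Real.exp (w i x) * (Real.exp (-(w i x)) - 1) := by
          rw [mul_sub, ← Real.exp_add, add_neg_cancel, Real.exp_zero]; ring
        have h9 : Real.exp (-(w i x)) * -(Real.exp (w i x) - 1) = Real.exp (-(w i x)) - 1 := by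
          rw [h8, ← mul_assoc, ← Real.exp_add, neg_add_cancel, Real.exp_zero, one_mul]
        calc -(w i x) ≤ Real.exp (-(w i x)) - 1 := by linarith
          _ = Real.exp (-(w i x)) * -(Real.exp (w i x) - 1) := h9.symm
          _ ≤ Real.exp K * -(Real.exp (w i x) - 1) := mul_le_mul_of_nonneg_right h7 (by linarith)
    have h4 : w i x ^ 2 = |w i x| ^ 2 := (sq_abs _).symm
    rw [h4]
    have h5 : |w i x| ^ 2 ≤ (Real.exp K * |Real.exp (w i x) - 1|) ^ 2 :=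
      pow_le_pow_left₀ (abs_nonneg _) h3 2
    refine h5.trans (le_of_eq ?_)
    rw [mul_pow, sq_abs, ← Real.exp_nat_mul]
    norm_num
  · rw [← I_smul]
    refine I_mono (hC.mem1 _ hi.1) (mem_smul _ (hC.mem1 _ hp.1)) ?_
    rw [hC.Γ_ex_self hi, le_iff_ae]
    filter_upwards [smul_ae (ex (w i) ^ 2 * C.Γ (w i) (w i)) (Real.exp (2 * K)),
      mul_ae (ex (w i) ^ 2) (C.Γ (w i) (w i)), sq_ae (ex (w i)), ex_ae (w i), hk,
      hC.Γ_nonneg_ae hi.1] with x a1 a2 a3 a4 a5 a6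
    rw [a1, a2, a3, a4]
    have h3 : 1 ≤ Real.exp (2 * K) * Real.exp (w i x) ^ 2 := by
      rw [← Real.exp_nat_mul, ← Real.exp_add]
      refine Real.one_le_exp ?_
      have := (abs_le.1 a5).1
      push_cast
      linarith
    calc C.Γ (w i) (w i) x = 1 * C.Γ (w i) (w i) x := (one_mul _).symm
      _ ≤ (Real.exp (2 * K) * Real.exp (w i x) ^ 2) * C.Γ (w i) (w i) x :=
        mul_le_mul_of_nonneg_right h3 a6
      _ = _ := by ring

/-- continuity of `exp` -/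
theorem WTo_ex [l.IsCountablyGenerated] (h : C.WTo l u a) (hK0 : 0 ≤ K) (hK : BdTo l u K)
    (ha : ∀ᵐ x ∂m, |a x| ≤ K) : C.WTo l (fun i => ex (u i) - 1) (ex a - 1) := by
  have hc : Continuous fun s => Real.exp s - 1 := Real.continuous_exp.sub continuous_const
  have h1 := hC.WTo_comp h (p := -K) (q := K) (by linarith) hK0
    (by filter_upwards [hK] with i hi
        filter_upwards [hi] with x hx using abs_le.1 hx)
    (by filter_upwards [ha] with x hx using abs_le.1 hx) hc Real.continuous_exp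
    (fun t _ => ((Real.hasDerivAt_exp t).sub_const 1).hasDerivWithinAt) (by simp)
  have e : ∀ f : M →ₘ[m] ℝ, AEEqFun.comp (fun s => Real.exp s - 1) hc f = ex f - 1 := fun f => by
    rw [eq_iff_ae]
    filter_upwards [AEEqFun.coeFn_comp (fun s => Real.exp s - 1) hc f, sub_ae (ex f) 1, ex_ae f,
      one_ae (M := M) (m := m)] with x a1 a2 a3 a4
    rw [a1, a2, a3, a4, Function.comp_apply]
  simpa only [e] using h1

/-- products with exponentials -/
theorem WTo_ex_mul [l.IsCountablyGenerated] (h : C.WTo l u a) (hK0 : 0 ≤ K) (hK : BdTo l u K)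
    (ha : ∀ᵐ x ∂m, |a x| ≤ K) (hL : ∀ᶠ i in l, ∀ᵐ x ∂m, C.Γ (u i) (u i) x ≤ L)
    (hLa : ∀ᵐ x ∂m, C.Γ a a x ≤ L) (hv : C.WTo l v b) :
    C.WTo l (fun i => ex (u i) * v i) (ex a * b) := by
  have hc : Continuous fun s => Real.exp s - 1 := Real.continuous_exp.sub continuous_const
  have e : ∀ f : M →ₘ[m] ℝ, AEEqFun.comp (fun s => Real.exp s - 1) hc f = ex f - 1 := fun f => by
    rw [eq_iff_ae]
    filter_upwards [AEEqFun.coeFn_comp (fun s => Real.exp s - 1) hc f, sub_ae (ex f) 1, ex_ae f,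
      one_ae (M := M) (m := m)] with x a1 a2 a3 a4
    rw [a1, a2, a3, a4, Function.comp_apply]
  obtain ⟨B, B', hB0, hB0', hB⟩ := hC.comp_bd hc Real.continuous_exp
    (fun t => (Real.hasDerivAt_exp t).sub_const 1) (by simp) K L
  simp only [e] at hB
  have h2 : ∀ᶠ i in l, (∀ᵐ x ∂m, |(ex (u i) - 1 : M →ₘ[m] ℝ) x| ≤ B) ∧
      ex (u i) - 1 ∈ C.A ∧ (∀ᵐ x ∂m, C.Γ (ex (u i) - 1) (ex (u i) - 1) x ≤ B') := by
    filter_upwards [hK, hL, h.mem] with i a1 a2 a3 using hB _ a3 a1 a2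
  have h3 := hB _ h.mem' ha hLa
  have h4 := hC.WTo_mul (hC.WTo_ex h hK0 hK ha) hv (K := B) (L := B') (h2.mono fun i hi => hi.1)
    h3.1 (h2.mono fun i hi => hi.2.2) h3.2.2
  have h5 := hC.WTo_add h4 hv
  have e2 : ∀ f g : M →ₘ[m] ℝ, (ex f - 1) * g + g = ex f * g := fun f g => by ring
  simpa only [e2] using h5

/-! ### derivatives in `W` -/

variable {f g : ℝ → M →ₘ[m] ℝ} {f' g' : M →ₘ[m] ℝ} {S : Set ℝ} {t : ℝ}

theorem DW_iff_WTo : C.DW f f' S t ↔ (∀ r ∈ S, f r - f t ∈ C.W) ∧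
    C.WTo (𝓝[S \ {t}] t) (fun r => (r - t)⁻¹ • (f r - f t)) f' := by
  refine ⟨fun h => ⟨h.mem, ?_, h.mem', h.lim⟩, fun h => ⟨h.1, h.2.mem', h.2.lim⟩⟩
  filter_upwards [self_mem_nhdsWithin] with r hr using hC.smul_mem _ _ (h.mem r hr.1)

/-- differences tend to `0` -/
theorem DW_sub_WTo (h : C.DW f f' S t) : C.WTo (𝓝[S \ {t}] t) (fun r => f r - f t) 0 := by
  have h1 := (hC.DW_iff_WTo.1 h).2
  have h2 : Tendsto (fun r : ℝ => r - t) (𝓝[S \ {t}] t) (𝓝 0) := by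
    have : Tendsto (fun r : ℝ => r - t) (𝓝 t) (𝓝 (t - t)) := tendsto_id.sub_const t
    rw [sub_self] at this
    exact this.mono_left nhdsWithin_le_nhds
  have h3 := hC.WTo_smul_tendsto h1 h2
  rw [zero_smul] at h3
  refine h3.congr ?_
  filter_upwards [self_mem_nhdsWithin] with r hr
  exact smul_cancel (sub_ne_zero.2 hr.2) _

/-- continuity of a differentiable curve -/
theorem DW_WTo (h : C.DW f f' S t) (ht : f t ∈ C.W) : C.WTo (𝓝[S] t) f (f t) := by
  have h1 := hC.WTo_add (hC.DW_sub_WTo h) (hC.WTo_const ht)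
  have e : ∀ r, f r - f t + f t = f r := fun r => by ring
  simp only [e, zero_add] at h1
  refine ⟨?_, ht, ?_⟩
  · filter_upwards [self_mem_nhdsWithin] with r hr
    have := hC.add_mem _ (h.mem r hr) _ ht
    rwa [e] at this
  have h2 : Tendsto (fun r => C.nrm2 (f r - f t)) (pure t) (𝓝 0) := by
    rw [tendsto_pure_left]
    intro s hs
    have e0 : f t - f t = 0 := by ring
    rw [e0, hC.nrm2_zero]; exact mem_of_mem_nhds hs
  have h3 : 𝓝[S] t ≤ 𝓝[S \ {t}] t ⊔ pure t := by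
    have : S ⊆ S \ {t} ∪ {t} := fun x hx => by
      by_cases hxt : x = t
      · exact Or.inr hxt
      · exact Or.inl ⟨hx, hxt⟩
    refine (nhdsWithin_mono t this).trans ?_
    rw [nhdsWithin_union, nhdsWithin_singleton]
  exact (h1.lim.sup h2).mono_left h3

/-- multiplication by a fixed exponential -/
theorem WTo_const_ex_mul [l.IsCountablyGenerated] (ha : a ∈ C.A) (hLa : MemLp (C.Γ a a) ∞ m)
    (hv : C.WTo l v b) : C.WTo l (fun i => ex a * v i) (ex a * b) := by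
  obtain ⟨K, hK⟩ := mem_top_iff.1 ha.2
  obtain ⟨L, hL⟩ := mem_top_iff.1 hLa
  have hK' : ∀ᵐ x ∂m, |a x| ≤ |K| := by
    filter_upwards [hK] with x hx using hx.trans (le_abs_self _)
  have hL' : ∀ᵐ x ∂m, C.Γ a a x ≤ L := by
    filter_upwards [hL] with x hx using (le_abs_self _).trans hx
  exact hC.WTo_ex_mul (hC.WTo_const ha.1) (abs_nonneg K) (Eventually.of_forall fun _ => hK') hK'
    (Eventually.of_forall fun _ => hL') hL' hv

/-- bounds of differences -/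
theorem bd_diff {f g : M →ₘ[m] ℝ} (hf : f ∈ C.A) (hg : g ∈ C.A) (h1 : ∀ᵐ x ∂m, |f x| ≤ K)
    (h2 : ∀ᵐ x ∂m, |g x| ≤ K) (h3 : ∀ᵐ x ∂m, C.Γ f f x ≤ L) (h4 : ∀ᵐ x ∂m, C.Γ g g x ≤ L) :
    (f - g ∈ C.A) ∧ (∀ᵐ x ∂m, |(f - g) x| ≤ 2 * K) ∧
    ∀ᵐ x ∂m, C.Γ (f - g) (f - g) x ≤ 4 * L := by
  have hb : ∀ᵐ x ∂m, |(f - g) x| ≤ 2 * K := by
    filter_upwards [h1, h2, sub_ae f g] with x a1 a2 a3
    rw [a3]
    exact (abs_sub _ _).trans (by linarith)
  exact ⟨⟨hC.sub_mem hf.1 hg.1, mem_top_iff.2 ⟨_, hb⟩⟩, hb, hC.Γ_sub_bd hf.1 hg.1 h3 h4⟩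

/-- derivative of `exp` along a curve with uniform bounds -/
theorem DW_ex (h : C.DW f f' S t) (ht : t ∈ S) (hA : ∀ r ∈ S, f r ∈ C.A)
    (hK : ∀ r ∈ S, ∀ᵐ x ∂m, |f r x| ≤ K) (hL : ∀ r ∈ S, ∀ᵐ x ∂m, C.Γ (f r) (f r) x ≤ L) :
    C.DW (fun r => ex (f r)) (ex (f t) * f') S t := by
  have hLt : MemLp (C.Γ (f t) (f t)) ∞ m := mem_top_iff.2 ⟨L, by
    filter_upwards [hL t ht, hC.Γ_nonneg_ae (hA t ht).1] with x a1 a2
    rwa [abs_of_nonneg a2]⟩
  have e : ∀ r, ex (f r) - ex (f t) = ex (f t) * (ex (f r - f t) - 1) := fun r => by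
    have : f r = f t + (f r - f t) := by ring
    conv_lhs => rw [this, ex_add]
    ring
  have hb : ∀ r ∈ S, _ := fun r hr =>
    hC.bd_diff (hA r hr) (hA t ht) (hK r hr) (hK t ht) (hL r hr) (hL t ht)
  refine hC.DW_iff_WTo.2 ⟨fun r hr => ?_, ?_⟩
  · rw [e]
    exact (hC.ex_mul_A (hA t ht) (hC.ex_A (hb r hr).1)).1
  · have h1 := hC.DW_sub_WTo h
    have h2 := (hC.DW_iff_WTo.1 h).2
    have h3 := hC.WTo_exq h1 (K := |2 * K|) (L := |4 * L|) (abs_nonneg _) (abs_nonneg _)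
      (by filter_upwards [self_mem_nhdsWithin] with r hr
          filter_upwards [(hb r hr.1).2.1] with x hx using hx.trans (le_abs_self _))
      (by filter_upwards [self_mem_nhdsWithin] with r hr
          filter_upwards [(hb r hr.1).2.2] with x hx using hx.trans (le_abs_self _)) h2
    have h4 := hC.WTo_const_ex_mul (hA t ht) hLt h3
    refine h4.congr (Eventually.of_forall fun r => ?_)
    rw [e, mul_smul_comm]

/-- derivative of a logarithm along a curve with uniform bounds -/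
theorem DW_log (h : C.DW (fun r => ex (f r)) f' S t) (ht : t ∈ S) (hA : ∀ r ∈ S, f r ∈ C.A)
    (hK : ∀ r ∈ S, ∀ᵐ x ∂m, |f r x| ≤ K) (hL : ∀ r ∈ S, ∀ᵐ x ∂m, C.Γ (f r) (f r) x ≤ L) :
    C.DW f (ex (-f t) * f') S t := by
  have hLt : MemLp (C.Γ (-f t) (-f t)) ∞ m := mem_top_iff.2 ⟨L, by
    rw [hC.Γ_neg_left (hA t ht).1 (hC.neg_mem (hA t ht).1),
      hC.Γ_neg_right (hA t ht).1 (hA t ht).1, neg_neg]
    filter_upwards [hL t ht, hC.Γ_nonneg_ae (hA t ht).1] with x a1 a2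
    rwa [abs_of_nonneg a2]⟩
  have hA' : -f t ∈ C.A := ⟨hC.neg_mem (hA t ht).1, by
    obtain ⟨B, hB⟩ := mem_top_iff.1 (hA t ht).2
    refine mem_top_iff.2 ⟨B, ?_⟩
    filter_upwards [hB, neg_ae (f t)] with x a1 a2
    rwa [a2, abs_neg]⟩
  have e : ∀ r, ex (-f t) * (ex (f r) - ex (f t)) = ex (f r - f t) - 1 := fun r => by
    have : f r - f t = -f t + f r := by ring
    rw [this, ex_add, mul_sub, ex_neg_mul]
  have hb : ∀ r ∈ S, _ := fun r hr =>
    hC.bd_diff (hA r hr) (hA t ht) (hK r hr) (hK t ht) (hL r hr) (hL t ht)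
  refine hC.DW_iff_WTo.2 ⟨fun r hr => (hb r hr).1.1, ?_⟩
  have h1 := hC.WTo_const_ex_mul hA' hLt (hC.DW_sub_WTo h)
  simp only [e, mul_zero] at h1
  have h2 := hC.WTo_const_ex_mul hA' hLt (hC.DW_iff_WTo.1 h).2
  simp only [mul_smul_comm, e] at h2
  have hKl : BdTo (𝓝[S \ {t}] t) (fun r => f r - f t) |2 * K| := by
    filter_upwards [self_mem_nhdsWithin] with r hr
    filter_upwards [(hb r hr.1).2.1] with x hx using hx.trans (le_abs_self _)
  have h3 := hC.WTo_log_zero (w := fun r => f r - f t) (by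
    filter_upwards [self_mem_nhdsWithin] with r hr using (hb r hr.1).1) hKl h1
  exact hC.WTo_loq h3 (L := |4 * L|) (abs_nonneg _) (abs_nonneg _) hKl
    (by filter_upwards [self_mem_nhdsWithin] with r hr
        filter_upwards [(hb r hr.1).2.2] with x hx using hx.trans (le_abs_self _)) h2

end IsDir

end Vale.Agent.P233
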