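import Vale.Agent.P233.H748.PairT

/-! # Weights `rh` and continuity of the time derivatives -/

set_option linter.all false

open MeasureTheory Filter Topology Set
open scoped ENNReal NNReal

universe u

namespace Vale.Agent.P233

open H788

variable {M : Type u} [MeasurableSpace M] {m : Measure M} {C : Calc m}

namespace IsGamma

variable (hC : IsGamma C)
variable {ι : Type*} {l : Filter ι} {v w X : ι → M →ₘ[m] ℝ} {a b x : M →ₘ[m] ℝ}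
include hC

/-- bounds of exponentials along a strongly convergent family -/
theorem STo_ex_bd (h : C.STo l v a) : ∃ B : ℝ, 0 ≤ B ∧ (∀ᵐ y ∂m, |ex a y| ≤ B) ∧
    ∀ᶠ i in l, ∀ᵐ y ∂m, |ex (v i) y| ≤ B := by
  obtain ⟨Λ, h0, p1, p2⟩ := h.bd
  have key : ∀ f : M →ₘ[m] ℝ, TBd C Λ f → ∀ᵐ y ∂m, |ex f y| ≤ Real.exp Λ := fun f hf => by
    filter_upwards [hf.abs, ex_ae f] with y a1 a2
    rw [a2, abs_of_pos (Real.exp_pos _)]
    exact Real.exp_le_exp.2 (abs_le.1 a1).2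
  exact ⟨Real.exp Λ, (Real.exp_pos _).le, key _ p1, p2.mono fun i hi => key _ hi⟩

theorem STo_ex_diff [l.IsCountablyGenerated] (h : C.STo l v a) :
    (∀ᶠ i in l, MemLp (ex (v i) - ex a : M →ₘ[m] ℝ) 2 m) ∧
    Tendsto (fun i => I ((ex (v i) - ex a) ^ 2)) l (𝓝 0) := by
  obtain ⟨Λ, h0, p1, p2⟩ := h.bd
  have hD := hC.toIsDir
  have h1 := hD.WTo_L2 (hD.WTo_ex h.W h0 (p2.mono fun i hi => hi.abs) p1.abs)
  have e : ∀ i, ex (v i) - 1 - (ex a - 1) = ex (v i) - ex a := fun i => by ring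
  refine ⟨?_, ?_⟩
  · filter_upwards [h1.mem] with i hi
    have := mem_sub hi h1.mem'
    rwa [e] at this
  · have := h1.lim
    simpa only [e] using this

/-- weights `exp v` in `L²` -/
theorem L2To_ex_mul [l.IsCountablyGenerated] (h : C.STo l v a) (hX : L2To l X x) :
    L2To l (fun i => ex (v i) * X i) (ex a * x) := by
  obtain ⟨Λ, h0, p1, p2⟩ := h.bd
  obtain ⟨B, hB0, b1, b2⟩ := hC.STo_ex_bd h
  have hD := hC.toIsDir
  have h1 := hD.WTo_L2 (hD.WTo_ex h.W h0 (p2.mono fun i hi => hi.abs) p1.abs)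
  have key : ∀ f : M →ₘ[m] ℝ, (∀ᵐ y ∂m, |ex f y| ≤ B) →
      ∀ᵐ y ∂m, |(ex f - 1 : M →ₘ[m] ℝ) y| ≤ B + 1 := fun f hf => by
    filter_upwards [hf, sub_ae (ex f) 1, one_ae (M := M) (m := m)] with y a1 a2 a3
    rw [a2, a3]
    exact (abs_sub _ _).trans (by rw [abs_one]; linarith)
  have h2 := (h1.mul_bdd hX (K := B + 1) (b2.mono fun i hi => key _ hi) (key _ b1)).add hX
  have e : ∀ f g : M →ₘ[m] ℝ, (ex f - 1) * g + g = ex f * g := fun f g => by ring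
  simpa only [e] using h2

/-- weights `exp v` in `L¹` -/
theorem L1To_ex_mul [l.IsCountablyGenerated] (h : C.STo l v a) (hX : L1To l X x) :
    L1To l (fun i => ex (v i) * X i) (ex a * x) := by
  obtain ⟨B, hB0, b1, b2⟩ := hC.STo_ex_bd h
  obtain ⟨c1, c2⟩ := hC.STo_ex_diff h
  exact L1To.bdd_mul c2 c1 hX b2 b1

end IsGamma

section pair

variable {K : ℝ} {P : ℝ → (M →ₘ[m] ℝ) → (M →ₘ[m] ℝ)} (hP : Heat C K P)
variable (hC : IsGamma C) {κ : ℝ} (hB : C.BEi κ)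
variable {ε a b : ℝ} {φ v : ℝ → M →ₘ[m] ℝ} (hp : Pair C P ε a b φ v)
variable {X : ℝ → M →ₘ[m] ℝ} {x : M →ₘ[m] ℝ} {t : ℝ}
include hP hC hB hp

theorem Pair.L2To_rh_mul [SigmaFinite m] (ht : t ∈ Icc a b) (hX : L2To (𝓝[Icc a b] t) X x) :
    L2To (𝓝[Icc a b] t) (fun r => rh ε φ v r * X r) (rh ε φ v t * x) :=
  hC.L2To_ex_mul (hp.STo_L hP hC hB ht) hX

theorem Pair.L1To_rh_mul [SigmaFinite m] (ht : t ∈ Icc a b) (hX : L1To (𝓝[Icc a b] t) X x) :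
    L1To (𝓝[Icc a b] t) (fun r => rh ε φ v r * X r) (rh ε φ v t * x) :=
  hC.L1To_ex_mul (hp.STo_L hP hC hB ht) hX

theorem Pair.WTo_rh_mul [SigmaFinite m] (ht : t ∈ Icc a b) (hX : C.WTo (𝓝[Icc a b] t) X x) :
    C.WTo (𝓝[Icc a b] t) (fun r => rh ε φ v r * X r) (rh ε φ v t * x) :=
  hC.STo_ex_mul hB (hp.STo_L hP hC hB ht) hX

/-- `∫ ρ X` is continuous if `X` is continuous in `L¹` -/
theorem Pair.tendsto_I_rh [SigmaFinite m] (ht : t ∈ Icc a b) (hX : L1To (𝓝[Icc a b] t) X x) :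
    Tendsto (fun r => I (rh ε φ v r * X r)) (𝓝[Icc a b] t) (𝓝 (I (rh ε φ v t * x))) :=
  (hp.L1To_rh_mul hP hC hB ht hX).I_lim

/-! ### continuity of the derivatives in `W` -/

theorem Pair.WTo_u' [SigmaFinite m] (ht : t ∈ Icc a b) : C.WTo (𝓝[Icc a b] t)
    (fun r => (ε / 2) • C.lap (v r) - (2 : ℝ)⁻¹ • C.Γ (v r) (v r))
    ((ε / 2) • C.lap (v t) - (2 : ℝ)⁻¹ • C.Γ (v t) (v t)) := by
  have h := hp.STo_u hP hC hB ht
  have hD := hC.toIsDir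
  exact hD.WTo_sub (hD.WTo_smul _ h.lap) (hD.WTo_smul _ (hC.STo_Γ hB h h))

theorem Pair.WTo_φ' [SigmaFinite m] (ht : t ∈ Icc a b) : C.WTo (𝓝[Icc a b] t)
    (fun r => -((ε / 2) • C.lap (φ r)) - (2 : ℝ)⁻¹ • C.Γ (φ r) (φ r))
    (-((ε / 2) • C.lap (φ t)) - (2 : ℝ)⁻¹ • C.Γ (φ t) (φ t)) := by
  have h := hp.STo_φ hP hC hB ht
  have hD := hC.toIsDir
  exact hD.WTo_sub (hD.WTo_neg (hD.WTo_smul _ h.lap)) (hD.WTo_smul _ (hC.STo_Γ hB h h))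

theorem Pair.WTo_L' [SigmaFinite m] (ht : t ∈ Icc a b) : C.WTo (𝓝[Icc a b] t)
    (fun r => -(C.lap (th φ v r) + C.Γ (LL ε φ v r) (th φ v r)))
    (-(C.lap (th φ v t) + C.Γ (LL ε φ v t) (th φ v t))) := by
  have hD := hC.toIsDir
  have h := hp.STo_th hP hC hB ht
  exact hD.WTo_neg (hD.WTo_add h.lap (hC.STo_Γ hB (hp.STo_L hP hC hB ht) h))

theorem Pair.WTo_th' [SigmaFinite m] (ht : t ∈ Icc a b) : C.WTo (𝓝[Icc a b] t)
    (fun r => -((2 : ℝ)⁻¹ • C.Γ (th φ v r) (th φ v r))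
      - (ε ^ 2 / 8) • ((2 : ℝ) • C.lap (LL ε φ v r) + C.Γ (LL ε φ v r) (LL ε φ v r)))
    (-((2 : ℝ)⁻¹ • C.Γ (th φ v t) (th φ v t))
      - (ε ^ 2 / 8) • ((2 : ℝ) • C.lap (LL ε φ v t) + C.Γ (LL ε φ v t) (LL ε φ v t))) := by
  have hD := hC.toIsDir
  have h := hp.STo_th hP hC hB ht
  have h' := hp.STo_L hP hC hB ht
  exact hD.WTo_sub (hD.WTo_neg (hD.WTo_smul _ (hC.STo_Γ hB h h)))
    (hD.WTo_smul _ (hD.WTo_add (hD.WTo_smul _ h'.lap) (hC.STo_Γ hB h' h')))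

theorem Pair.WTo_rh' [SigmaFinite m] (ht : t ∈ Icc a b) : C.WTo (𝓝[Icc a b] t)
    (fun r => -(C.Γ (rh ε φ v r - 1) (th φ v r) + rh ε φ v r * C.lap (th φ v r)))
    (-(C.Γ (rh ε φ v t - 1) (th φ v t) + rh ε φ v t * C.lap (th φ v t))) := by
  have hD := hC.toIsDir
  have h := hp.STo_th hP hC hB ht
  exact hD.WTo_neg (hD.WTo_add (hC.STo_Γ hB (hp.STo_rh hP hC hB ht) h)
    (hp.WTo_rh_mul hP hC hB ht h.lap))

end pair

end Vale.Agent.P233
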